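import Vale.Agent.P298.H272.Model
import Vale.Agent.P298.H400.Node2
import Vale.Agent.P298.H471.Bpf
import Vale.Agent.P298.H416.Cmp

/-!
# The chart model of the exceptional curves of a Jung modification

`R` is the local ring of the surface, `𝒦` its fraction field; `i : I` the exceptional curves with
valuation rings `O i`, normalised orders `v i`, residue function fields `κ i`; a place `q` of a
residue field has a second order `lam q` (the order along the second coordinate of the leading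
coefficient), `e1 q` is its ramification, `e2 q` the generator of the group of second orders,
`nb q` the place of the other curve if `q` is a node.
-/

set_option linter.unusedSectionVars false

noncomputable section

namespace Vale.Agent.P298.H955

open Finset Vale.Agent.P298.FF H416

/-- the chart model. -/
structure CModel (R 𝒦 : Type*) [CommRing R] [Algebra ℂ R] [Field 𝒦] [Algebra ℂ 𝒦]
    [Algebra R 𝒦] [IsScalarTower ℂ R 𝒦] (I : Type*) [Fintype I] [DecidableEq I] where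
  /-- the residue fields. -/
  κ : I → Type
  [fld : ∀ i, Field (κ i)]
  [alg : ∀ i, Algebra ℂ (κ i)]
  [cff : ∀ i, CFF ℂ (κ i)]
  /-- the valuation rings. -/
  O : ∀ _ : I, ValuationSubring 𝒦
  /-- the orders. -/
  v : ∀ _ : I, 𝒦 → ℤ
  hv : ∀ i, NOrd (O i) (v i)
  /-- the residue maps. -/
  ρ : ∀ i, Res (O i) (κ i)
  ρ_surj : ∀ i, Function.Surjective (ρ i).ρ
  hC : ∀ i (c : ℂ), algebraMap ℂ 𝒦 c ∈ O i
  ρ_C : ∀ i (c : ℂ), (ρ i).ρ ⟨algebraMap ℂ 𝒦 c, hC i c⟩ = algebraMap ℂ (κ i) c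
  inj : Function.Injective (algebraMap R 𝒦)
  hR : ∀ i (h : R), algebraMap R 𝒦 h ∈ O i
  /-- the second orders. -/
  lam : (Σ i, Plk ℂ (κ i)) → 𝒦 → ℤ
  e1 : (Σ i, Plk ℂ (κ i)) → ℤ
  e2 : (Σ i, Plk ℂ (κ i)) → ℤ
  e1_pos : ∀ q, 0 < e1 q
  e2_pos : ∀ q, 0 < e2 q
  e2_dvd : ∀ q z, z ≠ 0 → e2 q ∣ lam q z
  lam_mul : ∀ q z w, z ≠ 0 → w ≠ 0 → lam q (z * w) = lam q z + lam q w
  lam_res : ∀ (q : Σ i, Plk ℂ (κ i)) (z : O q.1), (z : 𝒦) ≠ 0 → v q.1 z = 0 →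
    lam q z = e1 q * ord q.2 ((ρ q.1).ρ z)
  /-- the partner of a node. -/
  nb : (Σ i, Plk ℂ (κ i)) → Option (Σ i, Plk ℂ (κ i))
  nb_symm : ∀ q q', nb q = some q' → nb q' = some q
  nb_ne : ∀ q q', nb q = some q' → q'.1 ≠ q.1
  nb_fin : {q | nb q ≠ none}.Finite
  ram_fin : {q | nb q = none ∧ e1 q ≠ e2 q}.Finite
  lam_fin : ∀ i, ∃ z, v i z ≠ 0 ∧ {P : Plk ℂ (κ i) | lam ⟨i, P⟩ z ≠ 0}.Finite
  /-- the two lattices of a node. -/
  lat : ∀ q q', nb q = some q' → ∀ z, z ≠ 0 → ∀ b, lam q z = e2 q * b →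
    ∃ z', z' ≠ 0 ∧ v q'.1 z' = b ∧ lam q' z' = e2 q' * v q.1 z
  /-- regular functions. -/
  node_le : ∀ q q', nb q = some q' → ∀ h : R, h ≠ 0 →
    e2 q * v q'.1 (algebraMap R 𝒦 h) ≤ lam q (algebraMap R 𝒦 h)
  node_nv : ∀ q q', nb q = some q' → ∀ h : R, h ≠ 0 →
    lam q (algebraMap R 𝒦 h) = e2 q * v q'.1 (algebraMap R 𝒦 h) →
    lam q' (algebraMap R 𝒦 h) = e2 q' * v q.1 (algebraMap R 𝒦 h)
  free_le : ∀ q, nb q = none → ∀ h : R, h ≠ 0 → 0 ≤ lam q (algebraMap R 𝒦 h)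
  /-- the canonical orders. -/
  K : I → ℤ
  ω : I → 𝒦
  ω_ne : ∀ i, ω i ≠ 0
  ω_v : ∀ i, v i (ω i) = K i + 1
  η : ∀ i, κ i
  η_nc : ∀ i (a : ℂ), η i ≠ algebraMap ℂ (κ i) a
  adj_node : ∀ q q', nb q = some q' →
    lam q (ω q.1) + e1 q * (wd ℂ (η q.1) q.2 + 1) = e2 q * (K q'.1 + 1)
  adj_free : ∀ q, nb q = none → lam q (ω q.1) + e1 q * (wd ℂ (η q.1) q.2 + 1) = e2 q
  /-- the first coordinate. -/
  x : R
  x_ne : x ≠ 0
  x_pos : ∀ i, 0 < v i (algebraMap R 𝒦 x)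
  x_node : ∀ q q', nb q = some q' →
    lam q (algebraMap R 𝒦 x) = e2 q * v q'.1 (algebraMap R 𝒦 x)
  x_ram : ∀ q, nb q = none → e1 q ≠ e2 q → lam q (algebraMap R 𝒦 x) = 0
  x_zero : ∃ q, nb q = none ∧ lam q (algebraMap R 𝒦 x) ≠ 0
  /-- fractions. -/
  frac : ∀ z : 𝒦, ∃ g h : R, h ≠ 0 ∧ z * algebraMap R 𝒦 h = algebraMap R 𝒦 g
  /-- the maximal ideal. -/
  mm : Ideal R
  mm_fin : ∀ n : ℕ, Module.Finite ℂ (R ⧸ mm ^ n)
  mm_v : ∀ h ∈ mm, h ≠ 0 → ∀ i, 1 ≤ v i (algebraMap R 𝒦 h)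

attribute [instance] CModel.fld CModel.alg CModel.cff

namespace CModel

variable {R 𝒦 : Type*} [CommRing R] [Algebra ℂ R] [Field 𝒦] [Algebra ℂ 𝒦]
  [Algebra R 𝒦] [IsScalarTower ℂ R 𝒦] {I : Type*} [Fintype I] [DecidableEq I]
  (C : CModel R 𝒦 I)

/-- the places of all the curves. -/
abbrev Q := Σ i, Plk ℂ (C.κ i)

include C in
theorem map_ne {h : R} (hh : h ≠ 0) : algebraMap R 𝒦 h ≠ 0 := by
  intro h0
  rw [← (algebraMap R 𝒦).map_zero] at h0
  exact hh (C.inj h0)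

/-! ### second orders -/

theorem lam_one (q : C.Q) : C.lam q 1 = 0 := by
  have := C.lam_mul q 1 1 one_ne_zero one_ne_zero
  rw [mul_one] at this
  omega

theorem lam_inv (q : C.Q) {z : 𝒦} (hz : z ≠ 0) : C.lam q z⁻¹ = -C.lam q z := by
  have := C.lam_mul q z z⁻¹ hz (inv_ne_zero hz)
  rw [mul_inv_cancel₀ hz, C.lam_one] at this
  omega

theorem lam_pow (q : C.Q) {z : 𝒦} (hz : z ≠ 0) (n : ℕ) : C.lam q (z ^ n) = n * C.lam q z := by
  induction n with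
  | zero => simp [C.lam_one]
  | succ n ih =>
    rw [pow_succ, C.lam_mul q _ _ (pow_ne_zero n hz) hz, ih]
    push_cast
    ring

theorem lam_zpow (q : C.Q) {z : 𝒦} (hz : z ≠ 0) (n : ℤ) : C.lam q (z ^ n) = n * C.lam q z := by
  cases n with
  | ofNat n => rw [Int.ofNat_eq_natCast, zpow_natCast, C.lam_pow q hz]
  | negSucc n =>
    rw [zpow_negSucc, C.lam_inv q (pow_ne_zero _ hz), C.lam_pow q hz, Int.negSucc_eq]
    push_cast
    ring

/-- a uniformizer. -/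
def pi (i : I) : 𝒦 := (C.hv i).one.choose

theorem v_pi (i : I) : C.v i (C.pi i) = 1 := (C.hv i).one.choose_spec

theorem pi_ne (i : I) : C.pi i ≠ 0 := by
  intro h
  have := C.v_pi i
  rw [h, (C.hv i).zero] at this
  exact zero_ne_one this

/-- the residue (zero outside of the ring). -/
def rs (i : I) (z : 𝒦) : C.κ i :=
  open Classical in if h : z ∈ C.O i then (C.ρ i).ρ ⟨z, h⟩ else 0

theorem rs_mem {i : I} {z : 𝒦} (h : z ∈ C.O i) : C.rs i z = (C.ρ i).ρ ⟨z, h⟩ := by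
  rw [rs, dif_pos h]

theorem mem_O {i : I} {z : 𝒦} (hz : z ≠ 0) : z ∈ C.O i ↔ 0 ≤ C.v i z := by
  rw [(C.hv i).mem]
  exact ⟨fun h => h.resolve_left hz, Or.inr⟩

theorem rs_eq_zero {i : I} {z : 𝒦} (h : z ∈ C.O i) : C.rs i z = 0 ↔ z = 0 ∨ 1 ≤ C.v i z := by
  rw [C.rs_mem h, (C.ρ i).ker]
  by_cases hz : z = 0
  · subst hz
    simp
  · rw [(C.hv i).val_lt_one hz]
    simp only [hz, false_or]
    rfl

theorem rs_add {i : I} {z w : 𝒦} (hz : z ∈ C.O i) (hw : w ∈ C.O i) :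
    C.rs i (z + w) = C.rs i z + C.rs i w := by
  rw [C.rs_mem hz, C.rs_mem hw, C.rs_mem (add_mem hz hw), ← map_add]
  rfl

theorem rs_mul {i : I} {z w : 𝒦} (hz : z ∈ C.O i) (hw : w ∈ C.O i) :
    C.rs i (z * w) = C.rs i z * C.rs i w := by
  rw [C.rs_mem hz, C.rs_mem hw, C.rs_mem (mul_mem hz hw), ← map_mul]
  rfl

theorem rs_C (i : I) (c : ℂ) : C.rs i (algebraMap ℂ 𝒦 c) = algebraMap ℂ (C.κ i) c := by
  rw [C.rs_mem (C.hC i c), C.ρ_C]

/-- the leading coefficient in degree `d`. -/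
def lco (i : I) (d : ℤ) (z : 𝒦) : C.κ i := C.rs i (z * C.pi i ^ (-d))

theorem v_shift (i : I) (d : ℤ) {z : 𝒦} (hz : z ≠ 0) :
    C.v i (z * C.pi i ^ (-d)) = C.v i z - d := by
  rw [(C.hv i).mul _ _ hz (zpow_ne_zero _ (C.pi_ne i)), (C.hv i).zpow, C.v_pi]
  ring

theorem shift_mem {i : I} {d : ℤ} {z : 𝒦} (h : z = 0 ∨ d ≤ C.v i z) :
    z * C.pi i ^ (-d) ∈ C.O i := by
  rcases eq_or_ne z 0 with rfl | hz
  · rw [zero_mul]
    exact zero_mem _
  · rw [C.mem_O (mul_ne_zero hz (zpow_ne_zero _ (C.pi_ne i))), C.v_shift i d hz]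
    have := h.resolve_left hz
    omega

theorem lco_eq_zero {i : I} {d : ℤ} {z : 𝒦} (h : z = 0 ∨ d ≤ C.v i z) :
    C.lco i d z = 0 ↔ z = 0 ∨ d + 1 ≤ C.v i z := by
  rcases eq_or_ne z 0 with rfl | hz
  · rw [lco, C.rs_eq_zero (C.shift_mem h)]
    simp
  · rw [lco, C.rs_eq_zero (C.shift_mem h), C.v_shift i d hz]
    have h1 : z * C.pi i ^ (-d) ≠ 0 := mul_ne_zero hz (zpow_ne_zero _ (C.pi_ne i))
    simp only [h1, hz, false_or]
    omega

theorem lco_ne {i : I} {z : 𝒦} (hz : z ≠ 0) : C.lco i (C.v i z) z ≠ 0 := by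
  rw [Ne, C.lco_eq_zero (Or.inr le_rfl)]
  rintro (h | h)
  · exact hz h
  · omega

/-- the second order by the order of the leading coefficient. -/
theorem lam_eq (q : C.Q) {z : 𝒦} (hz : z ≠ 0) :
    C.lam q z = C.v q.1 z * C.lam q (C.pi q.1) + C.e1 q * ord q.2 (C.lco q.1 (C.v q.1 z) z) := by
  have h0 : z * C.pi q.1 ^ (-C.v q.1 z) ≠ 0 := mul_ne_zero hz (zpow_ne_zero _ (C.pi_ne _))
  have h1 : z * C.pi q.1 ^ (-C.v q.1 z) ∈ C.O q.1 := C.shift_mem (Or.inr le_rfl)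
  have h2 := C.lam_res q ⟨_, h1⟩ h0 (by
    show C.v q.1 (z * C.pi q.1 ^ (-C.v q.1 z)) = 0
    rw [C.v_shift _ _ hz, sub_self])
  rw [lco, C.rs_mem h1, ← h2]
  show _ = _ + C.lam q (z * C.pi q.1 ^ (-C.v q.1 z))
  rw [C.lam_mul q _ _ hz (zpow_ne_zero _ (C.pi_ne _)), C.lam_zpow q (C.pi_ne _)]
  ring

/-- lifting of residues. -/
theorem exists_lift (i : I) (d : ℤ) {u : C.κ i} (hu : u ≠ 0) :
    ∃ z : 𝒦, z ≠ 0 ∧ C.v i z = d ∧ C.lco i d z = u := by
  obtain ⟨w, hw⟩ := C.ρ_surj i u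
  have hw0 : (w : 𝒦) ≠ 0 := by
    intro h
    have : w = 0 := Subtype.ext h
    rw [this, map_zero] at hw
    exact hu hw.symm
  have hwv : C.v i w = 0 := by
    have h1 : 0 ≤ C.v i w := (C.mem_O hw0).1 w.2
    by_contra hne
    have h2 : C.rs i (w : 𝒦) = 0 := (C.rs_eq_zero w.2).2 (Or.inr (by omega))
    rw [C.rs_mem w.2] at h2
    exact hu (hw.symm.trans h2)
  refine ⟨w * C.pi i ^ d, mul_ne_zero hw0 (zpow_ne_zero _ (C.pi_ne i)), ?_, ?_⟩
  · rw [(C.hv i).mul _ _ hw0 (zpow_ne_zero _ (C.pi_ne i)), (C.hv i).zpow, C.v_pi, hwv]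
    ring
  · have h1 : (w : 𝒦) * C.pi i ^ d * C.pi i ^ (-d) = w := by
      rw [mul_assoc, ← zpow_add₀ (C.pi_ne i), add_neg_cancel, zpow_zero, mul_one]
    rw [lco, h1, C.rs_mem w.2]
    exact hw

/-- elements with given orders. -/
theorem exists_orders (q : C.Q) (d n : ℤ) : ∃ z : 𝒦, z ≠ 0 ∧ C.v q.1 z = d ∧
    C.lam q z = d * C.lam q (C.pi q.1) + C.e1 q * n := by
  obtain ⟨t, ht0, ht⟩ := FF.exists_unif q.2
  obtain ⟨z, hz, hv, hl⟩ := C.exists_lift q.1 d (zpow_ne_zero n ht0)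
  refine ⟨z, hz, hv, ?_⟩
  rw [C.lam_eq q hz, hv, hl, FF.ord_zpow, ht, mul_one]

theorem e2_dvd_e1 (q : C.Q) : C.e2 q ∣ C.e1 q := by
  obtain ⟨z, hz, hv, hl⟩ := C.exists_orders q 0 1
  have := C.e2_dvd q z hz
  rwa [hl, zero_mul, zero_add, mul_one] at this

/-! ### the lattices -/

/-- the index. -/
def r (q : C.Q) : ℕ := (C.e1 q / C.e2 q).toNat

theorem e1_eq (q : C.Q) : C.e1 q = C.e2 q * C.r q := by
  have h1 := C.e1_pos q
  have h2 := C.e2_pos q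
  have h3 : 0 ≤ C.e1 q / C.e2 q := Int.ediv_nonneg h1.le h2.le
  rw [r, Int.toNat_of_nonneg h3, Int.mul_ediv_cancel' (C.e2_dvd_e1 q)]

theorem r_pos (q : C.Q) : 0 < C.r q := by
  have h1 := C.e1_pos q
  have h2 := C.e2_pos q
  have h3 := C.e1_eq q
  by_contra hcon
  have h4 : C.r q = 0 := by omega
  rw [h4] at h3
  simp at h3
  omega

/-- the lattice of a place. -/
def nl (q : C.Q) : H400.NL where
  L :=
    { carrier := {ab | ∃ z : 𝒦, z ≠ 0 ∧ C.v q.1 z = ab.1 ∧ C.lam q z = C.e2 q * ab.2}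
      zero_mem' := ⟨1, one_ne_zero, (C.hv q.1).map_one, by rw [C.lam_one]; simp⟩
      add_mem' := by
        rintro a b ⟨z, hz, hz1, hz2⟩ ⟨w, hw, hw1, hw2⟩
        refine ⟨z * w, mul_ne_zero hz hw, ?_, ?_⟩
        · rw [(C.hv q.1).mul _ _ hz hw, hz1, hw1]
          rfl
        · rw [C.lam_mul q _ _ hz hw, hz2, hw2, Prod.snd_add]
          ring
      neg_mem' := by
        rintro a ⟨z, hz, hz1, hz2⟩
        refine ⟨z⁻¹, inv_ne_zero hz, ?_, ?_⟩
        · rw [(C.hv q.1).inv, hz1]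
          rfl
        · rw [C.lam_inv q hz, hz2, Prod.snd_neg]
          ring }
  r := C.r q
  rpos := C.r_pos q
  zero := by
    intro b
    constructor
    · rintro ⟨z, hz, hz1, hz2⟩
      simp only at hz1 hz2
      have h1 := C.lam_eq q hz
      rw [hz1, zero_mul, zero_add, hz2, C.e1_eq q, mul_assoc] at h1
      exact ⟨_, mul_left_cancel₀ (C.e2_pos q).ne' h1⟩
    · rintro ⟨m, rfl⟩
      obtain ⟨z, hz, hv, hl⟩ := C.exists_orders q 0 m
      refine ⟨z, hz, hv, ?_⟩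
      rw [hl, C.e1_eq q]
      ring
  surj := by
    intro a
    obtain ⟨z, hz, hv, hl⟩ := C.exists_orders q a 0
    obtain ⟨b, hb⟩ := C.e2_dvd q z hz
    exact ⟨b, z, hz, hv, hb⟩

theorem mem_nl {q : C.Q} {a b : ℤ} : (a, b) ∈ (C.nl q).L ↔
    ∃ z : 𝒦, z ≠ 0 ∧ C.v q.1 z = a ∧ C.lam q z = C.e2 q * b := Iff.rfl

theorem nl_r (q : C.Q) : (C.nl q).r = C.r q := rfl

theorem nl_swap {q q' : C.Q} (h : C.nb q = some q') {a b : ℤ} (hab : (a, b) ∈ (C.nl q).L) :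
    (b, a) ∈ (C.nl q').L := by
  obtain ⟨z, hz, rfl, h2⟩ := hab
  obtain ⟨z', hz', h3, h4⟩ := C.lat q q' h z hz b h2
  exact ⟨z', hz', h3, h4⟩

theorem r_dvd {q q' : C.Q} (h : C.nb q = some q') : C.r q ∣ C.r q' := by
  obtain ⟨t, ht⟩ := (C.nl q').surj 1
  have h1 := C.nl_swap (C.nb_symm q q' h) ht
  have h2 := (C.nl q).L.nsmul_mem h1 (C.r q')
  have h3 : ((C.r q' : ℤ) * t, (0 : ℤ)) ∈ (C.nl q).L := by
    refine C.nl_swap (C.nb_symm q q' h) ?_
    exact ((C.nl q').zero _).2 (dvd_mul_right _ _)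
  have h4 := (C.nl q).L.sub_mem h2 h3
  have h5 : C.r q' • (t, (1 : ℤ)) - ((C.r q' : ℤ) * t, (0 : ℤ)) = (0, (C.r q' : ℤ)) := by
    ext <;> simp
  rw [h5] at h4
  have h6 := ((C.nl q).zero _).1 h4
  exact Int.natCast_dvd_natCast.1 h6

theorem r_eq {q q' : C.Q} (h : C.nb q = some q') : C.r q' = C.r q :=
  Nat.dvd_antisymm (C.r_dvd (C.nb_symm q q' h)) (C.r_dvd h)

/-- the least second order in a filtration step. -/
def y (D : I → ℤ) (q : C.Q) : ℤ := (C.nb q).elim 0 (fun q' => D q'.1)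

def u (D : I → ℤ) (q : C.Q) : ℤ := C.y D q + (C.nl q).rho (D q.1) (C.y D q)

theorem u_mem (D : I → ℤ) (q : C.Q) : (D q.1, C.u D q) ∈ (C.nl q).L := (C.nl q).rho_mem _ _

/-- places where the second order of the uniformizer is not zero. -/
theorem lam_pi_fin (i : I) : {P : Plk ℂ (C.κ i) | C.lam ⟨i, P⟩ (C.pi i) ≠ 0}.Finite := by
  obtain ⟨z, hz, hfin⟩ := C.lam_fin i
  have hz0 : z ≠ 0 := by
    rintro rfl
    exact hz (C.hv i).zero
  refine (hfin.union (FF.dv_finite (k := ℂ) (C.lco_ne hz0 (i := i)))).subset ?_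
  intro P hP
  by_contra hcon
  rw [Set.mem_union, not_or] at hcon
  have h1 := C.lam_eq ⟨i, P⟩ hz0
  simp only [Set.mem_ofPred_eq, not_not] at hcon
  simp only [hcon.1, hcon.2, mul_zero, add_zero] at h1
  rcases mul_eq_zero.1 h1.symm with h2 | h2
  · exact hz h2
  · exact hP h2

theorem dvd_del (D : I → ℤ) (q : C.Q) :
    ∃ n : ℤ, C.e1 q * n = D q.1 * C.lam q (C.pi q.1) - C.e2 q * C.u D q := by
  obtain ⟨z, hz, hz1, hz2⟩ := C.u_mem D q
  simp only at hz1 hz2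
  refine ⟨-ord q.2 (C.lco q.1 (C.v q.1 z) z), ?_⟩
  rw [← hz2, C.lam_eq q hz, hz1]
  ring

/-- the values of the bounding divisor. -/
def del (D : I → ℤ) (q : C.Q) : ℤ := (C.dvd_del D q).choose

theorem e1_del (D : I → ℤ) (q : C.Q) :
    C.e1 q * C.del D q = D q.1 * C.lam q (C.pi q.1) - C.e2 q * C.u D q :=
  (C.dvd_del D q).choose_spec

theorem r_free {q : C.Q} (h2 : C.e1 q = C.e2 q) : C.r q = 1 := by
  have h3 := C.e1_eq q
  rw [h2] at h3
  have h4 : (C.r q : ℤ) = 1 := by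
    have := C.e2_pos q
    have h5 : C.e2 q * 1 = C.e2 q * (C.r q : ℤ) := by rw [mul_one]; exact h3
    exact (mul_left_cancel₀ this.ne' h5).symm
  exact_mod_cast h4

theorem u_free {D : I → ℤ} {q : C.Q} (h1 : C.nb q = none) (h2 : C.e1 q = C.e2 q) :
    C.u D q = 0 := by
  have h3 : C.y D q = 0 := by rw [y, h1]; rfl
  have h4 := (C.nl q).rho_nonneg (D q.1) (C.y D q)
  have h5 := (C.nl q).rho_lt (D q.1) (C.y D q)
  rw [C.nl_r, C.r_free h2] at h5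
  rw [u, h3] at *
  push_cast at h5
  omega

theorem del_fin (D : I → ℤ) (i : I) : {P : Plk ℂ (C.κ i) | C.del D ⟨i, P⟩ ≠ 0}.Finite := by
  have h1 : {P : Plk ℂ (C.κ i) | C.nb ⟨i, P⟩ ≠ none}.Finite :=
    C.nb_fin.preimage (f := fun P => (⟨i, P⟩ : C.Q)) (fun P _ P' _ h => by
      simpa using h)
  have h2 : {P : Plk ℂ (C.κ i) | C.nb ⟨i, P⟩ = none ∧ C.e1 ⟨i, P⟩ ≠ C.e2 ⟨i, P⟩}.Finite :=
    C.ram_fin.preimage (f := fun P => (⟨i, P⟩ : C.Q)) (fun P _ P' _ h => by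
      simpa using h)
  refine ((h1.union h2).union (C.lam_pi_fin i)).subset ?_
  intro P hP
  by_contra hcon
  simp only [Set.mem_union, Set.mem_ofPred_eq, not_or, not_not, not_and] at hcon
  obtain ⟨⟨h3, h4⟩, h5⟩ := hcon
  have h6 := C.e1_del D ⟨i, P⟩
  rw [C.u_free h3 (h4 h3)] at h6
  simp only [h5, mul_zero, sub_zero] at h6
  exact hP ((mul_eq_zero.1 h6).resolve_left (C.e1_pos _).ne')

/-- the bounding divisor. -/
def Del (D : I → ℤ) (i : I) : Plk ℂ (C.κ i) →₀ ℤ :=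
  Finsupp.ofSupportFinite (fun P => C.del D ⟨i, P⟩) (C.del_fin D i)

theorem Del_apply (D : I → ℤ) (i : I) (P : Plk ℂ (C.κ i)) : C.Del D i P = C.del D ⟨i, P⟩ := rfl

/-! ### sums over the places of a curve -/

/-- the sum over the places. -/
def sm (i : I) (f : Plk ℂ (C.κ i) → ℝ) : ℝ := ∑ᶠ P, f P

/-- the self-intersection number. -/
def s (i : I) : ℝ := -C.sm i (fun P => (C.lam ⟨i, P⟩ (C.pi i) : ℝ) / C.e1 ⟨i, P⟩)

theorem supp_fin {i : I} {f : Plk ℂ (C.κ i) → ℝ} {S : Set (Plk ℂ (C.κ i))} (hS : S.Finite)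
    (h : ∀ P, f P ≠ 0 → P ∈ S) : (Function.support f).Finite := hS.subset fun P hP => h P hP

theorem finsum_dg {i : I} (D : Plk ℂ (C.κ i) →₀ ℤ) : ∑ᶠ P, (D P : ℝ) = (dg D : ℝ) := by
  have h1 : (Function.support fun P => (D P : ℝ)) ⊆ (D.support : Set (Plk ℂ (C.κ i))) := by
    intro P hP
    rw [Finset.mem_coe, Finsupp.mem_support_iff]
    intro h
    exact hP (by simp [h])
  rw [finsum_eq_sum_of_support_subset _ h1, dg_eq_sum (S := D.support) (fun P hP => by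
    rwa [Finsupp.mem_support_iff, not_not] at hP)]
  push_cast
  rfl

theorem e1R (q : C.Q) : (0 : ℝ) < C.e1 q := by exact_mod_cast C.e1_pos q

theorem e2R (q : C.Q) : (0 : ℝ) < C.e2 q := by exact_mod_cast C.e2_pos q

theorem e1_eqR (q : C.Q) : (C.e1 q : ℝ) = C.e2 q * C.r q := by exact_mod_cast C.e1_eq q

theorem rR (q : C.Q) : (0 : ℝ) < C.r q := by exact_mod_cast C.r_pos q

theorem fin_supp_lam (i : I) {z : 𝒦} (hz : z ≠ 0) :
    {P : Plk ℂ (C.κ i) | C.lam ⟨i, P⟩ z ≠ 0}.Finite := by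
  refine ((C.lam_pi_fin i).union (FF.dv_finite (k := ℂ) (C.lco_ne hz (i := i)))).subset ?_
  intro P hP
  by_contra hcon
  rw [Set.mem_union, not_or] at hcon
  have h1 := C.lam_eq ⟨i, P⟩ hz
  simp only [Set.mem_ofPred_eq, not_not] at hcon
  simp only [hcon.1, hcon.2, mul_zero, add_zero] at h1
  exact hP h1

/-- **the degree of the leading coefficient is zero.** -/
theorem sum_lam (i : I) {z : 𝒦} (hz : z ≠ 0) :
    ∑ᶠ P, (C.lam ⟨i, P⟩ z : ℝ) / C.e1 ⟨i, P⟩ = -(C.v i z * C.s i) := by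
  have h1 : ∀ P, (C.lam ⟨i, P⟩ z : ℝ) / C.e1 ⟨i, P⟩ =
      C.v i z * ((C.lam ⟨i, P⟩ (C.pi i) : ℝ) / C.e1 ⟨i, P⟩) +
        (dv ℂ (C.lco i (C.v i z) z) P : ℝ) := by
    intro P
    have h2 := C.lam_eq ⟨i, P⟩ hz
    have h3 := C.e1R ⟨i, P⟩
    rw [dv_apply, h2]
    push_cast
    field_simp
  rw [finsum_congr h1, finsum_add_distrib, ← mul_finsum, C.finsum_dg, dg_dv, s, sm]
  · push_cast
    ring
  · refine C.supp_fin (C.lam_pi_fin i) fun P hP h => hP ?_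
    simp [h]
  · refine C.supp_fin (FF.dv_finite (k := ℂ) (C.lco_ne hz (i := i))) fun P hP h => hP ?_
    rw [dv_apply, h]
    simp

/-- the nodes. -/
abbrev H : Type _ := {q : C.Q // C.nb q ≠ none}

/-- the frozen places. -/
abbrev F : Type _ := {q : C.Q // C.nb q = none ∧ C.e1 q ≠ C.e2 q}

instance : Fintype C.H := C.nb_fin.fintype

instance : Fintype C.F := C.ram_fin.fintype

/-- the partner of a node. -/
def op (h : C.H) : C.Q := (C.nb h.1).get (Option.ne_none_iff_isSome.1 h.2)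

theorem nb_op (h : C.H) : C.nb h.1 = some (C.op h) := (Option.some_get _).symm

def opp (h : C.H) : C.H := ⟨C.op h, by
  rw [C.nb_symm _ _ (C.nb_op h)]
  simp⟩

theorem opp_opp (h : C.H) : C.opp (C.opp h) = h := by
  have h1 := C.nb_symm _ _ (C.nb_op h)
  have h2 := C.nb_op (C.opp h)
  have h3 : (C.opp h).1 = C.op h := rfl
  rw [h3, h1] at h2
  exact Subtype.ext (Option.some_injective _ h2).symm

/-- splitting of a sum over the places. -/
theorem finsum_split (i : I) {f : Plk ℂ (C.κ i) → ℝ} (hf : (Function.support f).Finite) :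
    ∑ᶠ P, f P = ∑ᶠ P, (if C.nb ⟨i, P⟩ ≠ none then f P else 0) +
      ∑ᶠ P, (if C.nb ⟨i, P⟩ = none then f P else 0) := by
  rw [← finsum_add_distrib]
  · refine finsum_congr fun P => ?_
    by_cases h : C.nb ⟨i, P⟩ = none <;> simp [h]
  · refine hf.subset fun P hP h => hP ?_
    simp [h]
  · refine hf.subset fun P hP h => hP ?_
    simp [h]

open Classical in
/-- sums over the places of a curve with a property. -/
theorem sum_pred {p : C.Q → Prop} (hp : {q | p q}.Finite) [Fintype {q // p q}] (i : I)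
    (f : C.Q → ℝ) :
    ∑ᶠ P, (if p ⟨i, P⟩ then f ⟨i, P⟩ else 0) =
      ∑ h ∈ univ.filter (fun h : {q // p q} => h.1.1 = i), f h.1 := by
  set T : Finset (Plk ℂ (C.κ i)) := (hp.preimage (f := fun P => (⟨i, P⟩ : C.Q))
    (fun P _ P' _ h => by simpa using h)).toFinset with hT
  have hmem : ∀ P, P ∈ T ↔ p ⟨i, P⟩ := by
    intro P
    rw [hT, Set.Finite.mem_toFinset]
    rfl
  rw [finsum_eq_sum_of_support_subset (s := T)]
  · rw [Finset.sum_congr rfl (fun P hP => if_pos ((hmem P).1 hP))]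
    refine Finset.sum_bij (fun P hP => (⟨⟨i, P⟩, (hmem P).1 hP⟩ : {q // p q})) ?_ ?_ ?_ ?_
    · intro P hP
      rw [Finset.mem_filter]
      exact ⟨Finset.mem_univ _, rfl⟩
    · intro P hP P' hP' h
      simpa using h
    · rintro ⟨⟨i', P⟩, hP⟩ hh
      rw [Finset.mem_filter] at hh
      obtain ⟨-, rfl⟩ := hh
      exact ⟨P, (hmem P).2 hP, rfl⟩
    · intro P hP
      rfl
  · intro P hP
    rw [Finset.mem_coe, hmem]
    by_contra h
    exact hP (by simp [h])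

/-- sums over the nodes of a curve. -/
theorem sum_nodes (i : I) (f : C.Q → ℝ) :
    ∑ᶠ P, (if C.nb ⟨i, P⟩ ≠ none then f ⟨i, P⟩ else 0) =
      ∑ h ∈ univ.filter (fun h : C.H => h.1.1 = i), f h.1 := by
  rw [← C.sum_pred C.nb_fin i f]
  refine finsum_congr fun P => ?_
  by_cases h : C.nb ⟨i, P⟩ = none <;> simp [h]

/-- sums over the frozen places of a curve. -/
theorem sum_frozen (i : I) (f : C.Q → ℝ) (hf : ∀ q, C.nb q = none → C.e1 q = C.e2 q → f q = 0) :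
    ∑ᶠ P, (if C.nb ⟨i, P⟩ = none then f ⟨i, P⟩ else 0) =
      ∑ h ∈ univ.filter (fun h : C.F => h.1.1 = i), f h.1 := by
  rw [← C.sum_pred C.ram_fin i f]
  refine finsum_congr fun P => ?_
  by_cases h : C.nb ⟨i, P⟩ = none
  · by_cases h2 : C.e1 ⟨i, P⟩ = C.e2 ⟨i, P⟩
    · simp [h, h2, hf _ h h2]
    · simp [h, h2]
  · simp [h]

/-! ### the node data -/

/-- number of branches of `x = 0` at a curve. -/
def rC (i : I) : ℤ :=
  ∑ᶠ P, (if C.nb ⟨i, P⟩ = none then C.lam ⟨i, P⟩ (algebraMap R 𝒦 C.x) / C.e1 ⟨i, P⟩ else 0)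

theorem e1_dvd_x {q : C.Q} (h : C.nb q = none) : C.e1 q ∣ C.lam q (algebraMap R 𝒦 C.x) := by
  by_cases h2 : C.e1 q = C.e2 q
  · rw [h2]
    exact C.e2_dvd q _ (C.map_ne C.x_ne)
  · rw [C.x_ram q h h2]
    exact dvd_zero _

theorem supp_x (i : I) : (Function.support fun P : Plk ℂ (C.κ i) =>
    (if C.nb ⟨i, P⟩ = none then C.lam ⟨i, P⟩ (algebraMap R 𝒦 C.x) / C.e1 ⟨i, P⟩ else 0)).Finite := by
  refine (C.fin_supp_lam i (C.map_ne C.x_ne)).subset fun P hP h => hP ?_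
  by_cases h1 : C.nb ⟨i, P⟩ = none
  · simp [h1, h]
  · simp [h1]

theorem rC_cast (i : I) : (C.rC i : ℝ) = ∑ᶠ P, (if C.nb ⟨i, P⟩ = none then
    (C.lam ⟨i, P⟩ (algebraMap R 𝒦 C.x) : ℝ) / C.e1 ⟨i, P⟩ else 0) := by
  have h1 : (C.rC i : ℝ) = (Int.castAddHom ℝ) (C.rC i) := rfl
  rw [h1, rC, AddMonoidHom.map_finsum _ (C.supp_x i)]
  refine finsum_congr fun P => ?_
  split_ifs with h
  · exact Int.cast_div (C.e1_dvd_x h) (C.e1R _).ne'
  · simp

theorem sum_lam_split (i : I) {z : 𝒦} (hz : z ≠ 0) :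
    ∑ h ∈ univ.filter (fun h : C.H => h.1.1 = i), (C.lam h.1 z : ℝ) / C.e1 h.1 +
      ∑ᶠ P, (if C.nb ⟨i, P⟩ = none then (C.lam ⟨i, P⟩ z : ℝ) / C.e1 ⟨i, P⟩ else 0) =
      -(C.v i z * C.s i) := by
  rw [← C.sum_lam i hz, C.finsum_split i (f := fun P => (C.lam ⟨i, P⟩ z : ℝ) / C.e1 ⟨i, P⟩)
    (C.supp_fin (C.fin_supp_lam i hz) fun P hP h => hP (by simp [h])),
    C.sum_nodes i (fun q => (C.lam q z : ℝ) / C.e1 q)]

theorem div_node {h : C.H} {b : ℤ} {z : 𝒦} (hz : C.lam h.1 z = C.e2 h.1 * b) :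
    (C.lam h.1 z : ℝ) / C.e1 h.1 = b / C.r h.1 := by
  have h1 := C.e2R h.1
  have h2 := C.rR h.1
  rw [hz, C.e1_eqR]
  push_cast
  field_simp

theorem intA (i : I) : (C.v i (algebraMap R 𝒦 C.x) : ℝ) * C.s i +
    ∑ h ∈ univ.filter (fun h : C.H => h.1.1 = i),
      (C.v (C.op h).1 (algebraMap R 𝒦 C.x) : ℝ) / C.r h.1 = -C.rC i := by
  have h1 := C.sum_lam_split i (C.map_ne C.x_ne)
  rw [← C.rC_cast] at h1
  have h2 : ∑ h ∈ univ.filter (fun h : C.H => h.1.1 = i),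
      (C.lam h.1 (algebraMap R 𝒦 C.x) : ℝ) / C.e1 h.1 =
      ∑ h ∈ univ.filter (fun h : C.H => h.1.1 = i),
      (C.v (C.op h).1 (algebraMap R 𝒦 C.x) : ℝ) / C.r h.1 :=
    Finset.sum_congr rfl fun h _ => C.div_node (C.x_node _ _ (C.nb_op h))
  rw [h2] at h1
  linarith

theorem x_free_nonneg {q : C.Q} (h : C.nb q = none) : 0 ≤ C.lam q (algebraMap R 𝒦 C.x) :=
  C.free_le q h C.x C.x_ne

theorem rC_nonneg (i : I) : 0 ≤ C.rC i := by
  refine finsum_nonneg fun P => ?_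
  split_ifs with h
  · exact Int.ediv_nonneg (C.x_free_nonneg h) (C.e1_pos _).le
  · exact le_rfl

theorem rC_pos : ∃ i, 0 < C.rC i := by
  obtain ⟨⟨i, P⟩, h1, h2⟩ := C.x_zero
  refine ⟨i, finsum_pos (fun P => ?_) ⟨P, ?_⟩ (C.supp_x i)⟩
  · split_ifs with h
    · exact Int.ediv_nonneg (C.x_free_nonneg h) (C.e1_pos _).le
    · exact le_rfl
  · rw [if_pos h1]
    have h3 := C.x_free_nonneg h1
    obtain ⟨m, hm⟩ := C.e1_dvd_x h1
    rw [hm, Int.mul_ediv_cancel_left _ (C.e1_pos _).ne']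
    have h4 := C.e1_pos ⟨i, P⟩
    rw [hm] at h3 h2
    rcases lt_trichotomy m 0 with h5 | h5 | h5
    · nlinarith
    · rw [h5, mul_zero] at h2
      exact absurd rfl h2
    · exact h5

/-- the degree of the bounding divisor. -/
def deg (D : I → ℤ) (i : I) : ℤ := dg (C.Del D i)

theorem deg_eq (D : I → ℤ) (i : I) : (C.deg D i : ℝ) = -(D i * C.s i) -
    ∑ h ∈ univ.filter (fun h : C.H => h.1.1 = i),
      ((D (C.op h).1 : ℝ) + (C.nl h.1).rho (D i) (D (C.op h).1)) / C.r h.1 -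
    ∑ f ∈ univ.filter (fun f : C.F => f.1.1 = i), ((C.nl f.1).rho (D i) 0 : ℝ) / C.r f.1 := by
  have h1 : ∀ P, (C.Del D i P : ℝ) =
      D i * ((C.lam ⟨i, P⟩ (C.pi i) : ℝ) / C.e1 ⟨i, P⟩) - (C.u D ⟨i, P⟩ : ℝ) / C.r ⟨i, P⟩ := by
    intro P
    have h2 := C.e1_del D ⟨i, P⟩
    have h3 : (C.e1 ⟨i, P⟩ : ℝ) * C.del D ⟨i, P⟩ =
        D i * C.lam ⟨i, P⟩ (C.pi i) - C.e2 ⟨i, P⟩ * C.u D ⟨i, P⟩ := by exact_mod_cast h2
    have h4 := C.e2R ⟨i, P⟩
    have h5 := C.rR ⟨i, P⟩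
    rw [Del_apply]
    rw [C.e1_eqR] at h3 ⊢
    field_simp
    linarith
  have hu : (Function.support fun P => (C.u D ⟨i, P⟩ : ℝ) / C.r ⟨i, P⟩).Finite := by
    have h3 := (C.lam_pi_fin i).union (C.del_fin D i)
    refine h3.subset fun P hP => ?_
    by_contra hcon
    simp only [Set.mem_union, Set.mem_ofPred_eq, not_or, not_not] at hcon
    apply hP
    have h4 := h1 P
    rw [Del_apply, hcon.1, hcon.2] at h4
    simp only [Int.cast_zero, zero_div, mul_zero, zero_sub] at h4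
    simp only
    linarith
  rw [deg, ← C.finsum_dg, finsum_congr h1, finsum_sub_distrib, ← mul_finsum, C.finsum_split i hu,
    C.sum_nodes i (fun q => (C.u D q : ℝ) / C.r q),
    C.sum_frozen i (fun q => (C.u D q : ℝ) / C.r q) (fun q h1 h2 => by
      rw [C.u_free h1 h2]
      simp)]
  · have h5 : ∑ h ∈ univ.filter (fun h : C.H => h.1.1 = i), (C.u D h.1 : ℝ) / C.r h.1 =
        ∑ h ∈ univ.filter (fun h : C.H => h.1.1 = i),
          ((D (C.op h).1 : ℝ) + (C.nl h.1).rho (D i) (D (C.op h).1)) / C.r h.1 := by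
      refine Finset.sum_congr rfl fun h hh => ?_
      have h6 : C.y D h.1 = D (C.op h).1 := by
        rw [y, C.nb_op h]
        rfl
      rw [u, h6, (Finset.mem_filter.1 hh).2]
      push_cast
      ring
    have h7 : ∑ f ∈ univ.filter (fun f : C.F => f.1.1 = i), (C.u D f.1 : ℝ) / C.r f.1 =
        ∑ f ∈ univ.filter (fun f : C.F => f.1.1 = i),
          ((C.nl f.1).rho (D i) 0 : ℝ) / C.r f.1 := by
      refine Finset.sum_congr rfl fun h hh => ?_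
      have h6 : C.y D h.1 = 0 := by
        rw [y, h.2.1]
        rfl
      rw [u, h6, (Finset.mem_filter.1 hh).2]
      push_cast
      ring
    rw [h5, h7, s, sm]
    ring
  · refine C.supp_fin (C.lam_pi_fin i) fun P hP h => hP ?_
    simp [h]
  · exact hu

/-- the genus. -/
def gg (i : I) : ℤ := gen ℂ (C.κ i)

theorem adj (i : I) : ((C.K i : ℝ) + 1) * C.s i +
    ∑ h ∈ univ.filter (fun h : C.H => h.1.1 = i), (C.K (C.op h).1 : ℝ) / C.r h.1 =
    2 * C.gg i - 2 + ∑ h ∈ univ.filter (fun h : C.H => h.1.1 = i), (1 - 1 / (C.r h.1 : ℝ)) +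
      ∑ f ∈ univ.filter (fun f : C.F => f.1.1 = i), (1 - 1 / (C.r f.1 : ℝ)) := by
  obtain ⟨W, hW, hd⟩ := exists_dvzdx (C.η_nc i) (C.lco_ne (C.ω_ne i) (i := i))
  -- the values of the divisor
  set τ : C.Q → ℝ := fun q => ((C.lam q (C.ω q.1) : ℝ) + C.e1 q * (wd ℂ (C.η q.1) q.2 + 1)) /
    C.e1 q - 1 with hτ
  have h1 : ∀ P, (W P : ℝ) = τ ⟨i, P⟩ -
      (C.K i + 1) * ((C.lam ⟨i, P⟩ (C.pi i) : ℝ) / C.e1 ⟨i, P⟩) := by
    intro P
    have h2 := C.lam_eq ⟨i, P⟩ (C.ω_ne i)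
    have h3 := C.e1R ⟨i, P⟩
    simp only [hτ]
    rw [hW, h2]
    simp only [C.ω_v]
    push_cast
    field_simp
    ring
  have hnode : ∀ h : C.H, τ h.1 = (C.K (C.op h).1 : ℝ) / C.r h.1 - (1 - 1 / (C.r h.1 : ℝ)) := by
    intro h
    have h2 := C.adj_node _ _ (C.nb_op h)
    have h3 : (C.lam h.1 (C.ω h.1.1) : ℝ) + C.e1 h.1 * (wd ℂ (C.η h.1.1) h.1.2 + 1) =
      C.e2 h.1 * (C.K (C.op h).1 + 1) := by exact_mod_cast h2
    have h4 := C.e2R h.1
    have h5 := C.rR h.1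
    simp only [hτ]
    rw [h3, C.e1_eqR]
    field_simp
    ring
  have hfree : ∀ q : C.Q, C.nb q = none → τ q = -(1 - 1 / (C.r q : ℝ)) := by
    intro q hq
    have h2 := C.adj_free _ hq
    have h3 : (C.lam q (C.ω q.1) : ℝ) + C.e1 q * (wd ℂ (C.η q.1) q.2 + 1) = C.e2 q := by
      exact_mod_cast h2
    have h4 := C.e2R q
    have h5 := C.rR q
    simp only [hτ]
    rw [h3, C.e1_eqR]
    field_simp
    ring
  have hsup : (Function.support fun P => τ ⟨i, P⟩).Finite := by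
    have h3 : (Function.support fun P => W P).Finite := by
      refine (W.hasFiniteSupport).subset fun P hP => ?_
      exact hP
    refine ((C.lam_pi_fin i).union h3).subset fun P hP => ?_
    by_contra hcon
    simp only [Set.mem_union, Set.mem_ofPred_eq, not_or, not_not, Function.mem_support] at hcon
    apply hP
    have h4 := h1 P
    rw [hcon.1, hcon.2] at h4
    simp only [Int.cast_zero, zero_div, mul_zero, sub_zero] at h4
    exact h4.symm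
  have h2 : ((dg W : ℤ) : ℝ) = 2 * C.gg i - 2 := by
    rw [hd, gg]
    push_cast
    ring
  rw [← C.finsum_dg, finsum_congr h1, finsum_sub_distrib hsup, ← mul_finsum, C.finsum_split i hsup,
    C.sum_nodes i τ, C.sum_frozen i τ (fun q h1 h2 => by
      rw [hfree q h1, C.r_free h2]
      simp)] at h2
  · rw [Finset.sum_congr rfl (fun h _ => hnode h), Finset.sum_sub_distrib,
      Finset.sum_congr rfl (fun (f : C.F) _ => hfree f.1 f.2.1), Finset.sum_neg_distrib] at h2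
    rw [s, sm]
    linarith
  · refine C.supp_fin (C.lam_pi_fin i) fun P hP h => hP ?_
    simp [h]

/-- **the node data of the model.** -/
def nodeData : H400.NodeData I C.H C.F where
  org h := h.1.1
  opp := C.opp
  opp_opp := C.opp_opp
  org_ne h := C.nb_ne _ _ (C.nb_op h)
  nl h := C.nl h.1
  r_opp h := C.r_eq (C.nb_op h)
  L_opp h a b := ⟨fun hab => C.nl_swap (C.nb_symm _ _ (C.nb_op h)) hab,
    fun hab => C.nl_swap (C.nb_op h) hab⟩
  forg f := f.1.1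
  fnl f := C.nl f.1
  s := C.s
  g := C.gg
  K := C.K
  A i := C.v i (algebraMap R 𝒦 C.x)
  rC := C.rC
  LA h := ⟨_, C.map_ne C.x_ne, rfl, C.x_node _ _ (C.nb_op h)⟩
  LK h := by
    obtain ⟨z, hz, hv, hl⟩ := C.exists_orders h.1 0 (wd ℂ (C.η h.1.1) h.1.2 + 1)
    refine ⟨C.ω h.1.1 * z, mul_ne_zero (C.ω_ne _) hz, ?_, ?_⟩
    · rw [(C.hv _).mul _ _ (C.ω_ne _) hz, hv, C.ω_v, add_zero]
    · rw [C.lam_mul _ _ _ (C.ω_ne _) hz, hl, zero_mul, zero_add]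
      exact C.adj_node _ _ (C.nb_op h)
  fLA f := ⟨_, C.map_ne C.x_ne, rfl, by
    rw [C.x_ram _ f.2.1 f.2.2]
    simp⟩
  fLK f := by
    obtain ⟨z, hz, hv, hl⟩ := C.exists_orders f.1 0 (wd ℂ (C.η f.1.1) f.1.2 + 1)
    refine ⟨C.ω f.1.1 * z, mul_ne_zero (C.ω_ne _) hz, ?_, ?_⟩
    · rw [(C.hv _).mul _ _ (C.ω_ne _) hz, hv, C.ω_v, add_zero]
    · rw [C.lam_mul _ _ _ (C.ω_ne _) hz, hl, zero_mul, zero_add]
      simp only [mul_one]
      exact C.adj_free _ f.2.1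
  Apos := C.x_pos
  rC_nonneg := C.rC_nonneg
  rC_pos := C.rC_pos
  intA i := C.intA i
  adj i := C.adj i
  deg := C.deg
  deg_eq D i := C.deg_eq D i

end CModel

end Vale.Agent.P298.H955
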