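import Vale.Agent.P298.H416.Surf4
import Vale.Agent.P298.H868.Sf

/-!
# The partners of the places of a surface: symmetry and finiteness
-/

set_option linter.style.haveILetI false

noncomputable section

namespace Vale.Agent.P298.H955

open Vale.Agent.P298.FF Vale.Agent.P298.H400 Vale.Agent.P298.H416

variable {L K R : Type} [Field L] [Algebra ℂ L] [Field K] [Algebra ℂ K] [Algebra L K]
    [IsScalarTower ℂ L K] [FiniteDimensional L K] [Algebra.IsSeparable L K]
    [CommRing R] [Algebra ℂ R] [Algebra R K] [IsScalarTower ℂ R K]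
    (S : Surf L K R)

/-- **the field `nb_symm`.** -/
theorem nb_symm (q q' : S.Q) (h : S.nb q = some q') : S.nb q' = some q := by
  rcases h1 : S.nd (S.cht q) with _ | p'
  · rw [Surf.nb_none h1] at h
    exact absurd h (by simp)
  · rw [Surf.nb_some h1, Option.some.injEq] at h
    have h2 := S.nd_symm _ _ h1
    rw [← h, Surf.nb_pl ((S.psq q).swE h1) h2, Option.some.injEq]
    have h3 : ((S.psq q).swE h1).swE h2 = S.psq q := by
      refine Surf.Emb.ext ?_
      refine RingHom.ext fun z => ?_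
      rw [Surf.Emb.swE_f, Surf.Emb.swE_f, swOm_swOm]
    rw [h3, Surf.pl_psq]

/-- **the field `nb_ne`.** -/
theorem nb_ne (q q' : S.Q) (h : S.nb q = some q') : q'.1 ≠ q.1 := by
  rcases h1 : S.nd (S.cht q) with _ | p'
  · rw [Surf.nb_none h1] at h
    exact absurd h (by simp)
  · rw [Surf.nb_some h1, Option.some.injEq] at h
    intro h2
    refine S.nd_ne _ _ h1 ?_
    have h3 : q'.1.1 = p'.1 := by rw [← h]; rfl
    rw [← h3, h2]
    rfl

/-- **the field `nb_fin`.** -/
theorem nb_fin : {q | S.nb q ≠ none}.Finite := by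
  classical
  have h1 : {q | S.nb q ≠ none} ⊆ ⋃ i : S.I, ⋃ p ∈ {p | S.nd p ≠ none},
      (fun P : Plk ℂ (IsLocalRing.ResidueField i.2.val) => (⟨i, P⟩ : S.Q)) ''
        {P | S.dof ⟨i, P⟩ = p.2} := by
    intro q hq
    refine Set.mem_iUnion.2 ⟨q.1, Set.mem_iUnion₂.2 ⟨S.cht q, ?_, q.2, rfl, rfl⟩⟩
    intro h
    exact hq (Surf.nb_none h)
  exact (Set.finite_iUnion fun i => S.nd_fin.biUnion fun p _ =>
    (S.dof_fin i p.2).image _).subset h1

end Vale.Agent.P298.H955
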