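import Vale.Agent.P298.H928.Th2
import Vale.Agent.P298.H701.Br3

/-!
# The canonical data of the vertices, part 1: the charts of the words over an algebra
-/

open Filter Topology

namespace Vale.Agent.P298.H955

open Vale.Agent.P298 Vale.Agent.P298.H701 Vale.Agent.P298.H928

/-! ### the words over a commutative algebra -/

section alg

variable {A B : Type*} [CommRing A] [Algebra ℂ A] [CommRing B] [Algebra ℂ B]

/-- one blow-up over an algebra. -/
def blA : Option ℂ → A × A → A × A
  | some c, q => (q.1, q.1 * (q.2 + algebraMap ℂ A c))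
  | none, q => (q.1 * q.2, q.1)

@[simp] theorem blA_some (c : ℂ) (q : A × A) :
    blA (some c) q = (q.1, q.1 * (q.2 + algebraMap ℂ A c)) := rfl

@[simp] theorem blA_none (q : A × A) : blA none q = (q.1 * q.2, q.1) := rfl

/-- a word over an algebra. -/
def psiA : List (Option ℂ) → A × A → A × A
  | [], q => q
  | d :: w, q => psiA w (blA d q)

@[simp] theorem psiA_nil (q : A × A) : psiA [] q = q := rfl

@[simp] theorem psiA_cons (d : Option ℂ) (w : List (Option ℂ)) (q : A × A) :
    psiA (d :: w) q = psiA w (blA d q) := rfl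

/-- the sign of the Jacobian. -/
def sg : Option ℂ → ℤˣ
  | some _ => 1
  | none => -1

/-- the Jacobian of a word over an algebra. -/
def jA : List (Option ℂ) → A × A → A
  | [], _ => 1
  | d :: w, q => jA w (blA d q) * ((sg d : ℤ) * q.1)

@[simp] theorem jA_nil (q : A × A) : jA [] q = 1 := rfl

@[simp] theorem jA_cons (d : Option ℂ) (w : List (Option ℂ)) (q : A × A) :
    jA (d :: w) q = jA w (blA d q) * ((sg d : ℤ) * q.1) := rfl

/-- the map of pairs. -/
def mp (f : A →ₐ[ℂ] B) (q : A × A) : B × B := (f q.1, f q.2)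

theorem map_blA (f : A →ₐ[ℂ] B) (d : Option ℂ) (q : A × A) : mp f (blA d q) = blA d (mp f q) := by
  cases d <;> simp [mp]

theorem map_psiA (f : A →ₐ[ℂ] B) (w : List (Option ℂ)) (q : A × A) :
    mp f (psiA w q) = psiA w (mp f q) := by
  induction w generalizing q with
  | nil => rfl
  | cons d w ih => rw [psiA_cons, ih, map_blA, psiA_cons]

theorem map_jA (f : A →ₐ[ℂ] B) (w : List (Option ℂ)) (q : A × A) :
    f (jA w q) = jA w (mp f q) := by
  induction w generalizing q with
  | nil => simp
  | cons d w ih =>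
    rw [jA_cons, map_mul, ih, map_blA, jA_cons, map_mul, map_intCast]
    rfl

theorem psiA_zero (w : List (Option ℂ)) : psiA w (0 : A × A) = 0 := by
  induction w with
  | nil => rfl
  | cons d w ih =>
    have h1 : blA d (0 : A × A) = 0 := by cases d <;> simp [Prod.ext_iff]
    rw [psiA_cons, h1, ih]

end alg

section fld

variable {F : Type*} [Field F] [Algebra ℂ F]

/-- the words are injective outside of the fibre over the origin. -/
theorem psiA_inj (w : List (Option ℂ)) {q q' : F × F} (h0 : psiA w q ≠ 0)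
    (h : psiA w q = psiA w q') : q = q' := by
  induction w generalizing q q' with
  | nil => exact h
  | cons d u ih =>
    have h1 : blA d q = blA d q' := ih h0 h
    have h2 : blA d q ≠ 0 := fun h3 => h0 (by
      rw [psiA_cons, h3, psiA_zero])
    cases d with
    | none =>
      rw [blA_none, blA_none, Prod.mk.injEq] at h1
      obtain ⟨h3, h4⟩ := h1
      have h5 : q.1 ≠ 0 := by
        intro h6
        apply h2
        rw [blA_none, h6, zero_mul]
        rfl
      refine Prod.ext h4 (mul_left_cancel₀ h5 ?_)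
      rw [h3, h4]
    | some c =>
      rw [blA_some, blA_some, Prod.mk.injEq] at h1
      obtain ⟨h3, h4⟩ := h1
      have h5 : q.1 ≠ 0 := by
        intro h6
        apply h2
        rw [blA_some, h6, zero_mul]
        rfl
      refine Prod.ext h3 ?_
      rw [← h3] at h4
      have h6 := mul_left_cancel₀ h5 h4
      exact add_right_cancel h6

/-- the next coordinates. -/
theorem exists_next {w : List (Option ℂ)} {p : F × F} (h1 : p.1 ≠ 0) (h2 : p.2 ≠ 0)
    (d : Option ℂ) : ∃ p' : F × F, psiA (d :: w) p' = psiA w p ∧ blA d p' = p := by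
  cases d with
  | none =>
    refine ⟨(p.2, p.1 / p.2), ?_⟩
    have h3 : blA none (p.2, p.1 / p.2) = p := by
      rw [blA_none]
      refine Prod.ext ?_ rfl
      field_simp
    exact ⟨by rw [psiA_cons, h3], h3⟩
  | some c =>
    refine ⟨(p.1, p.2 / p.1 - algebraMap ℂ F c), ?_⟩
    have h3 : blA (some c) (p.1, p.2 / p.1 - algebraMap ℂ F c) = p := by
      rw [blA_some]
      refine Prod.ext rfl ?_
      simp only [sub_add_cancel]
      field_simp
    exact ⟨by rw [psiA_cons, h3], h3⟩

end fld

/-! ### germs -/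

/-- Taylor series of a pair of germs. -/
noncomputable def serP (G : ℂ × ℂ → ℂ × ℂ) : MvPowerSeries (Fin 2) ℂ × MvPowerSeries (Fin 2) ℂ :=
  (ser2 fun q => (G q).1, ser2 fun q => (G q).2)

theorem serP_bl {G : ℂ × ℂ → ℂ × ℂ} (hG : AnalyticAt ℂ G 0) (d : Option ℂ) :
    serP (fun q => bl d (G q)) = blA d (serP G) := by
  have h1 : AnalyticAt ℂ (fun q => (G q).1) 0 := analyticAt_fst.comp hG
  have h2 : AnalyticAt ℂ (fun q => (G q).2) 0 := analyticAt_snd.comp hG
  cases d with
  | none =>
    refine Prod.ext ?_ rfl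
    exact ser2_mul h1 h2
  | some c =>
    refine Prod.ext rfl ?_
    show ser2 (fun q => (G q).1 * ((G q).2 + c)) = _
    rw [ser2_mul h1 (h2.fun_add analyticAt_const), ser2_add h2 analyticAt_const, ser2_const]
    rfl

theorem serP_psi {G : ℂ × ℂ → ℂ × ℂ} (hG : AnalyticAt ℂ G 0) (w : List (Option ℂ)) :
    serP (fun q => psi w (G q)) = psiA w (serP G) := by
  induction w generalizing G with
  | nil => rfl
  | cons d w ih =>
    have h1 : AnalyticAt ℂ (fun q => bl d (G q)) 0 := (analyticAt_bl d (G 0)).comp hG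
    rw [psiA_cons, ← serP_bl hG, ← ih h1]
    rfl

theorem jac_psi_eq (w : List (Option ℂ)) (q : ℂ × ℂ) : jac (psi w) q = jA w q := by
  induction w generalizing q with
  | nil =>
    have h1 : HasFDerivAt (psi []) (ContinuousLinearMap.id ℂ (ℂ × ℂ)) q := hasFDerivAt_id q
    rw [jac_of_hasFDerivAt h1]
    simp
  | cons d w ih =>
    have hc : jac (psi (d :: w)) q = jac (psi w) (bl d q) * jac (bl d) q :=
      jac_comp (analyticAt_psi w (bl d q)).differentiableAt (analyticAt_bl d q).differentiableAt
    rw [hc, ih, jac_bl, jA_cons]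
    cases d <;> simp [sg]

theorem analyticAt_jA (w : List (Option ℂ)) (q : ℂ × ℂ) :
    AnalyticAt ℂ (fun q : ℂ × ℂ => (jA w q : ℂ)) q := by
  induction w generalizing q with
  | nil => exact analyticAt_const
  | cons d w ih =>
    have h1 : AnalyticAt ℂ (fun q : ℂ × ℂ => (jA w (bl d q) : ℂ)) q :=
      (ih (bl d q)).comp (analyticAt_bl d q)
    have h2 : AnalyticAt ℂ (fun q : ℂ × ℂ => ((sg d : ℤ) : ℂ) * q.1) q :=
      analyticAt_const.mul analyticAt_fst
    have h3 : ∀ q : ℂ × ℂ, blA d q = bl d q := fun q => by cases d <;> rfl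
    simp only [jA_cons, h3]
    exact h1.mul h2

theorem ser2_jA {G : ℂ × ℂ → ℂ × ℂ} (hG : AnalyticAt ℂ G 0) (w : List (Option ℂ)) :
    ser2 (fun q => jA w (G q)) = jA w (serP G) := by
  induction w generalizing G with
  | nil =>
    show ser2 (fun _ => (1 : ℂ)) = 1
    rw [ser2_const, map_one]
  | cons d w ih =>
    have h1 : AnalyticAt ℂ (fun q => bl d (G q)) 0 := (analyticAt_bl d (G 0)).comp hG
    have h2 : AnalyticAt ℂ (fun q => (G q).1) 0 := analyticAt_fst.comp hG
    have h3 : ∀ q : ℂ × ℂ, blA d q = bl d q := fun q => by cases d <;> rfl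
    have h4 : AnalyticAt ℂ (fun q => (jA w (bl d (G q)) : ℂ)) 0 :=
      AnalyticAt.fun_comp (g := fun q : ℂ × ℂ => (jA w q : ℂ)) (analyticAt_jA w (bl d (G 0))) h1
    have h5 : AnalyticAt ℂ (fun q => ((sg d : ℤ) : ℂ) * (G q).1) 0 := analyticAt_const.mul h2
    have h6 : ser2 (fun _ => ((sg d : ℤ) : ℂ)) = ((sg d : ℤ) : MvPowerSeries (Fin 2) ℂ) := by
      rw [ser2_const]
      simp
    simp only [jA_cons, h3]
    rw [ser2_mul h4 h5, ih h1, serP_bl hG, ser2_mul analyticAt_const h2, h6]
    rfl

end Vale.Agent.P298.H955
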