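import Vale.Agent.P298.H955.Adj1

/-!
# The canonical data of the vertices, part 2: the canonical element in the charts
-/

open Filter Topology

namespace Vale.Agent.P298.H955

open Vale.Agent.P298 Vale.Agent.P298.H701 Vale.Agent.P298.H928

variable {H : ℂ × ℂ → ℂ} (T : Tree H)

/-- the coordinates of the chart at the place `d` of the vertex `w`, seen in the blow-up. -/
noncomputable def GG (w : List (Option ℂ)) (d : Option ℂ) (q : ℂ × ℂ) : ℂ × ℂ :=
  (q.1 * q.2 ^ T.kap w d, q.2 + if T.kap w d = 0 then phi H (d :: w) q.1 else 0)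

theorem Th_eq (w : List (Option ℂ)) (d : Option ℂ) (q : ℂ × ℂ) :
    T.Th w d q = psi w (bl d (GG T w d q)) := rfl

theorem analyticAt_phi' {w : List (Option ℂ)} (hw : w ∈ T.C) {d : Option ℂ}
    (h : T.kap w d = 0) : AnalyticAt ℂ (phi H (d :: w)) 0 ∧ phi H (d :: w) 0 = 0 := by
  have h1 : d :: w ∉ T.C := by
    intro h1
    rw [T.kap_of_mem h1] at h
    omega
  exact ⟨T.analyticAt_phi hw h1, T.phi_zero hw h1⟩

theorem analyticAt_GG {w : List (Option ℂ)} (hw : w ∈ T.C) (d : Option ℂ) :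
    AnalyticAt ℂ (GG T w d) 0 := by
  have h1 : AnalyticAt ℂ (fun q : ℂ × ℂ => q.1 * q.2 ^ T.kap w d) 0 :=
    analyticAt_fst.mul (analyticAt_snd.pow _)
  refine h1.prod ?_
  by_cases h : T.kap w d = 0
  · simp only [h, if_true]
    exact analyticAt_snd.add ((analyticAt_phi' T hw h).1.comp_of_eq analyticAt_fst rfl)
  · simp only [h, if_false]
    exact analyticAt_snd.add analyticAt_const

theorem GG_zero {w : List (Option ℂ)} (hw : w ∈ T.C) (d : Option ℂ) : GG T w d 0 = 0 := by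
  by_cases h : T.kap w d = 0
  · simp [GG, h, (analyticAt_phi' T hw h).2, Prod.ext_iff]
  · simp [GG, h, Prod.ext_iff]

theorem jac_GG {w : List (Option ℂ)} (hw : w ∈ T.C) (d : Option ℂ) :
    ∀ᶠ q in 𝓝 (0 : ℂ × ℂ), jac (GG T w d) q = q.2 ^ T.kap w d := by
  by_cases h : T.kap w d = 0
  · filter_upwards [(continuous_fst.tendsto (0 : ℂ × ℂ)).eventually
      (analyticAt_phi' T hw h).1.eventually_analyticAt] with q hq
    have h1 : GG T w d = fun q : ℂ × ℂ => ((q.1, q.2 + phi H (d :: w) q.1) : ℂ × ℂ) := by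
      funext q
      simp [GG, h]
    rw [h1, Tree.jac_shear hq, h, pow_zero]
  · refine .of_forall fun q => ?_
    have h1 : GG T w d = fun q : ℂ × ℂ => ((q.1 * q.2 ^ T.kap w d, q.2) : ℂ × ℂ) := by
      funext q
      simp [GG, h]
    have h2 : HasFDerivAt (fun q : ℂ × ℂ => q.2 ^ T.kap w d)
        ((T.kap w d * q.2 ^ (T.kap w d - 1)) • ContinuousLinearMap.snd ℂ ℂ ℂ) q := by
      have := (hasFDerivAt_snd (𝕜 := ℂ) (p := q)).pow (T.kap w d)
      simpa using this
    have h3 : HasFDerivAt (fun q : ℂ × ℂ => ((q.1 * q.2 ^ T.kap w d, q.2) : ℂ × ℂ)) _ q :=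
      ((hasFDerivAt_fst (𝕜 := ℂ) (p := q)).mul h2).prodMk (hasFDerivAt_snd (𝕜 := ℂ) (p := q))
    rw [h1, jac_of_hasFDerivAt h3]
    simp

/-- the Jacobian of a chart. -/
theorem jac_Th {w : List (Option ℂ)} (hw : w ∈ T.C) (d : Option ℂ) :
    ∀ᶠ q in 𝓝 (0 : ℂ × ℂ), jac (T.Th w d) q = jA w (bl d (GG T w d q)) *
      (((sg d : ℤ) : ℂ) * (GG T w d q).1) * q.2 ^ T.kap w d := by
  filter_upwards [jac_GG T hw d, (analyticAt_GG T hw d).eventually_analyticAt] with q hq hq'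
  have h1 : T.Th w d = fun q => psi (d :: w) (GG T w d q) := by
    funext q
    rfl
  rw [h1, jac_comp (analyticAt_psi _ _).differentiableAt hq'.differentiableAt, hq, jac_psi_eq,
    jA_cons]
  have h3 : ∀ q : ℂ × ℂ, blA d q = bl d q := fun q => by cases d <;> rfl
  rw [h3]

/-- first coordinate. -/
theorem serP_GG_fst {w : List (Option ℂ)} (d : Option ℂ) :
    (serP (GG T w d)).1 = MvPowerSeries.X 0 * MvPowerSeries.X 1 ^ T.kap w d := by
  show ser2 (fun q : ℂ × ℂ => q.1 * q.2 ^ T.kap w d) = _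
  rw [ser2_mul analyticAt_fst (analyticAt_snd.fun_pow _), ser2_pow analyticAt_snd, ser2_fst,
    ser2_snd]

/-- the second coordinate is `X 1` modulo `X 0`. -/
theorem serP_GG_snd {w : List (Option ℂ)} (hw : w ∈ T.C) (d : Option ℂ) :
    ∃ R, (serP (GG T w d)).2 = MvPowerSeries.X 1 + MvPowerSeries.X 0 * R := by
  by_cases h : T.kap w d = 0
  · obtain ⟨h1, h2⟩ := analyticAt_phi' T hw h
    obtain ⟨g, hg, hgg⟩ := exists_mul_self h1 h2
    have h3 : AnalyticAt ℂ (fun q : ℂ × ℂ => g q.1) 0 := hg.comp_of_eq analyticAt_fst rfl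
    refine ⟨ser2 (fun q => g q.1), ?_⟩
    show ser2 (fun q : ℂ × ℂ => q.2 + if T.kap w d = 0 then phi H (d :: w) q.1 else 0) = _
    have h4 : (fun q : ℂ × ℂ => q.2 + if T.kap w d = 0 then phi H (d :: w) q.1 else 0) =
        fun q : ℂ × ℂ => q.2 + q.1 * g q.1 := by
      funext q
      rw [if_pos h, hgg]
    rw [h4, ser2_add analyticAt_snd (analyticAt_fst.fun_mul h3), ser2_mul analyticAt_fst h3,
      ser2_fst, ser2_snd]
  · refine ⟨0, ?_⟩
    show ser2 (fun q : ℂ × ℂ => q.2 + if T.kap w d = 0 then phi H (d :: w) q.1 else 0) = _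
    simp only [if_neg h, add_zero, mul_zero]
    rw [ser2_snd]

theorem serP_GG_snd_ne {w : List (Option ℂ)} (hw : w ∈ T.C) (d : Option ℂ) :
    (serP (GG T w d)).2 ≠ 0 := by
  obtain ⟨R, hR⟩ := serP_GG_snd T hw d
  rw [hR]
  intro h
  have h1 := congrArg (MvPowerSeries.coeff (Finsupp.single 1 1)) h
  rw [map_add, MvPowerSeries.coeff_X, if_pos rfl, map_zero] at h1
  have h2 : MvPowerSeries.coeff (Finsupp.single (1 : Fin 2) 1)
      (MvPowerSeries.X (0 : Fin 2) * R) = 0 := by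
    refine (MvPowerSeries.X_dvd_iff (s := (0 : Fin 2))).1 (Dvd.intro _ rfl) _ ?_
    simp
  rw [h2, add_zero] at h1
  exact one_ne_zero h1

/-- the series of the Jacobian of a chart. -/
theorem ser2_jac_Th {w : List (Option ℂ)} (hw : w ∈ T.C) (d : Option ℂ) :
    ser2 (jac (T.Th w d)) = jA w (blA d (serP (GG T w d))) *
      (((sg d : ℤ) : MvPowerSeries (Fin 2) ℂ) * (serP (GG T w d)).1) *
        MvPowerSeries.X 1 ^ T.kap w d := by
  have hG := analyticAt_GG T hw d
  have h1 : AnalyticAt ℂ (fun q => bl d (GG T w d q)) 0 :=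
    (analyticAt_bl d (GG T w d 0)).comp hG
  have h2 : AnalyticAt ℂ (fun q => (GG T w d q).1) 0 := analyticAt_fst.comp hG
  have h4 : AnalyticAt ℂ (fun q => (jA w (bl d (GG T w d q)) : ℂ)) 0 :=
    AnalyticAt.fun_comp (g := fun q : ℂ × ℂ => (jA w q : ℂ)) (analyticAt_jA w _) h1
  have h5 : AnalyticAt ℂ (fun q => ((sg d : ℤ) : ℂ) * (GG T w d q).1) 0 :=
    analyticAt_const.fun_mul h2
  have h6 : ser2 (fun _ => ((sg d : ℤ) : ℂ)) = ((sg d : ℤ) : MvPowerSeries (Fin 2) ℂ) := by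
    rw [ser2_const]
    simp
  have h7 : AnalyticAt ℂ (fun q : ℂ × ℂ => q.2 ^ T.kap w d) 0 := analyticAt_snd.fun_pow _
  rw [ser2_congr (jac_Th T hw d), ser2_mul (h4.fun_mul h5) h7, ser2_mul h4 h5, ser2_jA h1,
    serP_bl hG, ser2_mul analyticAt_const h2, h6, ser2_pow analyticAt_snd, ser2_snd]
  rfl

section L

variable {L F : Type*} [Field L] [Algebra ℂ L] [Field F] [Algebra ℂ F]

/-- the coordinates of a vertex in a chart. -/
theorem theta_coord {w : List (Option ℂ)} (hw : w ∈ T.C) (d : Option ℂ) {x y : L} (hx : x ≠ 0)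
    {p : L × L} (hp : psiA w p = (x, y)) (ι : MvPowerSeries (Fin 2) ℂ →ₐ[ℂ] F) (θ : L →ₐ[ℂ] F)
    (hθ : mp θ (x, y) = mp ι (serP (T.Th w d))) :
    mp θ p = mp ι (blA d (serP (GG T w d))) := by
  have h1 : AnalyticAt ℂ (fun q => bl d (GG T w d q)) 0 :=
    (analyticAt_bl d (GG T w d 0)).comp (analyticAt_GG T hw d)
  have h2 : serP (T.Th w d) = psiA w (blA d (serP (GG T w d))) := by
    rw [← serP_bl (analyticAt_GG T hw d), ← serP_psi h1]
    rfl
  refine psiA_inj w ?_ ?_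
  · rw [← map_psiA, hp]
    intro h3
    have h4 : θ x = 0 := (Prod.ext_iff.1 h3).1
    rw [map_eq_zero] at h4
    exact hx h4
  · rw [← map_psiA, hp, hθ, h2, map_psiA]

/-- the canonical element of a vertex: `dx dy = om (da/a) d(b/a)`. -/
def om (w : List (Option ℂ)) (p : L × L) : L := jA w p * p.1 ^ 2

/-- **the canonical element in a chart** `some c`. -/
theorem theta_om_some {w : List (Option ℂ)} (hw : w ∈ T.C) (c : ℂ) {p : L × L}
    (ι : MvPowerSeries (Fin 2) ℂ →ₐ[ℂ] F) (θ : L →ₐ[ℂ] F)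
    (hp : mp θ p = mp ι (blA (some c) (serP (GG T w (some c))))) :
    θ (om w p) = ι (MvPowerSeries.X 0 * ser2 (jac (T.Th w (some c)))) := by
  have h1 : θ p.1 = ι (blA (some c) (serP (GG T w (some c)))).1 := (Prod.ext_iff.1 hp).1
  rw [om, map_mul, map_jA, hp, ← map_jA, map_pow, h1, ← map_pow, ← map_mul, ser2_jac_Th T hw]
  congr 1
  rw [blA_some]
  simp only [serP_GG_fst, sg]
  push_cast
  ring

/-- **the canonical element in a chart** `none`. -/
theorem theta_om_none {w : List (Option ℂ)} (hw : w ∈ T.C) {p : L × L}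
    (ι : MvPowerSeries (Fin 2) ℂ →ₐ[ℂ] F) (θ : L →ₐ[ℂ] F)
    (hp : mp θ p = mp ι (blA none (serP (GG T w none)))) :
    θ (om w p) = ι (-(MvPowerSeries.X 0 * ser2 (jac (T.Th w none))) *
      (serP (GG T w none)).2 ^ 2) := by
  have h1 : θ p.1 = ι (blA none (serP (GG T w none))).1 := (Prod.ext_iff.1 hp).1
  rw [om, map_mul, map_jA, hp, ← map_jA, map_pow, h1, ← map_pow, ← map_mul, ser2_jac_Th T hw]
  congr 1
  rw [blA_none]
  simp only [serP_GG_fst, sg]
  push_cast
  ring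

/-- the coordinate `b/a` in a chart `some c`. -/
theorem theta_eta_some {w : List (Option ℂ)} (c : ℂ) {p : L × L}
    (ι : MvPowerSeries (Fin 2) ℂ →ₐ[ℂ] F) (hι : Function.Injective ι) (θ : L →ₐ[ℂ] F)
    (hp : mp θ p = mp ι (blA (some c) (serP (GG T w (some c))))) :
    θ (p.2 / p.1 - algebraMap ℂ L c) = ι (serP (GG T w (some c))).2 := by
  have h1 : θ p.1 = ι (blA (some c) (serP (GG T w (some c)))).1 := (Prod.ext_iff.1 hp).1
  have h2 : θ p.2 = ι (blA (some c) (serP (GG T w (some c)))).2 := (Prod.ext_iff.1 hp).2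
  have h3 : (serP (GG T w (some c))).1 ≠ 0 := by
    rw [serP_GG_fst]
    exact mul_ne_zero (X_ne_zero 0) (pow_ne_zero _ (X_ne_zero 1))
  have h4 : ι (serP (GG T w (some c))).1 ≠ 0 := fun h => h3 (hι (by rw [h, map_zero]))
  rw [map_sub, map_div₀, h1, h2, blA_some, AlgHom.commutes]
  simp only [map_mul, map_add, AlgHom.commutes]
  field_simp
  ring

/-- the coordinate `b/a` in a chart `none`. -/
theorem theta_eta_none {w : List (Option ℂ)} {p : L × L}
    (ι : MvPowerSeries (Fin 2) ℂ →ₐ[ℂ] F) (hι : Function.Injective ι) (θ : L →ₐ[ℂ] F)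
    (hp : mp θ p = mp ι (blA none (serP (GG T w none)))) :
    θ (p.1 / p.2) = ι (serP (GG T w none)).2 := by
  have h1 : θ p.1 = ι (blA none (serP (GG T w none))).1 := (Prod.ext_iff.1 hp).1
  have h2 : θ p.2 = ι (blA none (serP (GG T w none))).2 := (Prod.ext_iff.1 hp).2
  have h3 : (serP (GG T w none)).1 ≠ 0 := by
    rw [serP_GG_fst]
    exact mul_ne_zero (X_ne_zero 0) (pow_ne_zero _ (X_ne_zero 1))
  have h4 : ι (serP (GG T w none)).1 ≠ 0 := fun h => h3 (hι (by rw [h, map_zero]))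
  rw [map_div₀, h1, h2, blA_none]
  simp only [map_mul]
  field_simp

end L

end Vale.Agent.P298.H955
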