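import Vale.Agent.P298.H955.Adj2
import Vale.Agent.P298.H272.Step
import Vale.Agent.P298.H416.Cmp

/-!
# The canonical data of the vertices, part 3: orders and the adjunction equations
-/

open Filter Topology

namespace Vale.Agent.P298.H955

open Vale.Agent.P298 Vale.Agent.P298.H701 Vale.Agent.P298.H928 Vale.Agent.P298.H416
open Vale.Agent.P298.FF

/-- the two orders of a monomial times a unit. -/
structure Ords {F : Type*} [Field F] [Algebra ℂ F] (ι : MvPowerSeries (Fin 2) ℂ →ₐ[ℂ] F)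
    (v lam : F → ℤ) (N : ℤ) : Prop where
  inj : Function.Injective ι
  v_mul : ∀ x y, x ≠ 0 → y ≠ 0 → v (x * y) = v x + v y
  lam_mul : ∀ x y, x ≠ 0 → y ≠ 0 → lam (x * y) = lam x + lam y
  vX0 : v (ι (MvPowerSeries.X 0)) = N
  lX0 : lam (ι (MvPowerSeries.X 0)) = 0
  vX1 : v (ι (MvPowerSeries.X 1)) = 0
  lX1 : lam (ι (MvPowerSeries.X 1)) = N
  vU : ∀ U, IsUnit U → v (ι U) = 0
  lU : ∀ U, IsUnit U → lam (ι U) = 0
  vB : ∀ R, v (ι (MvPowerSeries.X 1 + MvPowerSeries.X 0 * R)) = 0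
  lB : ∀ R, lam (ι (MvPowerSeries.X 1 + MvPowerSeries.X 0 * R)) = N

section mult

variable {F : Type*} [Field F] {f : F → ℤ} (hf : ∀ x y, x ≠ 0 → y ≠ 0 → f (x * y) = f x + f y)

include hf

theorem mul_one' : f 1 = 0 := by
  have := hf 1 1 one_ne_zero one_ne_zero
  rw [mul_one] at this
  omega

theorem mul_inv' {x : F} (hx : x ≠ 0) : f x⁻¹ = -f x := by
  have := hf x x⁻¹ hx (inv_ne_zero hx)
  rw [mul_inv_cancel₀ hx, mul_one' hf] at this
  omega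

theorem mul_div' {x y : F} (hx : x ≠ 0) (hy : y ≠ 0) : f (x / y) = f x - f y := by
  rw [div_eq_mul_inv, hf x _ hx (inv_ne_zero hy), mul_inv' hf hy]
  ring

theorem mul_pow' {x : F} (hx : x ≠ 0) (n : ℕ) : f (x ^ n) = n * f x := by
  induction n with
  | zero => simp [mul_one' hf]
  | succ n ih =>
    rw [pow_succ, hf _ _ (pow_ne_zero n hx) hx, ih]
    push_cast
    ring

theorem mul_neg' {x : F} (hx : x ≠ 0) : f (-x) = f x := by
  have h1 : f (-1) = 0 := by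
    have := hf (-1) (-1) (neg_ne_zero.2 one_ne_zero) (neg_ne_zero.2 one_ne_zero)
    rw [neg_mul_neg, mul_one, mul_one' hf] at this
    omega
  rw [← neg_one_mul, hf _ _ (neg_ne_zero.2 one_ne_zero) hx, h1, zero_add]

end mult

namespace Ords

variable {F : Type*} [Field F] [Algebra ℂ F] {ι : MvPowerSeries (Fin 2) ℂ →ₐ[ℂ] F}
  {v lam : F → ℤ} {N : ℤ} (h : Ords ι v lam N)

include h

theorem ne {U : MvPowerSeries (Fin 2) ℂ} (hU : U ≠ 0) : ι U ≠ 0 := fun h1 =>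
  hU (h.inj (by rw [h1, map_zero]))

theorem v_mon (i j : ℕ) {U : MvPowerSeries (Fin 2) ℂ} (hU : IsUnit U) :
    v (ι (MvPowerSeries.X 0 ^ i * MvPowerSeries.X 1 ^ j * U)) = N * i := by
  have h0 : ι (MvPowerSeries.X (0 : Fin 2)) ≠ 0 := h.ne (X_ne_zero 0)
  have h1 : ι (MvPowerSeries.X (1 : Fin 2)) ≠ 0 := h.ne (X_ne_zero 1)
  rw [map_mul, map_mul, map_pow, map_pow, h.v_mul _ _ (mul_ne_zero (pow_ne_zero _ h0)
    (pow_ne_zero _ h1)) (h.ne hU.ne_zero), h.v_mul _ _ (pow_ne_zero _ h0) (pow_ne_zero _ h1),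
    mul_pow' h.v_mul h0, mul_pow' h.v_mul h1, h.vX0, h.vX1, h.vU U hU]
  ring

theorem l_mon (i j : ℕ) {U : MvPowerSeries (Fin 2) ℂ} (hU : IsUnit U) :
    lam (ι (MvPowerSeries.X 0 ^ i * MvPowerSeries.X 1 ^ j * U)) = N * j := by
  have h0 : ι (MvPowerSeries.X (0 : Fin 2)) ≠ 0 := h.ne (X_ne_zero 0)
  have h1 : ι (MvPowerSeries.X (1 : Fin 2)) ≠ 0 := h.ne (X_ne_zero 1)
  rw [map_mul, map_mul, map_pow, map_pow, h.lam_mul _ _ (mul_ne_zero (pow_ne_zero _ h0)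
    (pow_ne_zero _ h1)) (h.ne hU.ne_zero), h.lam_mul _ _ (pow_ne_zero _ h0) (pow_ne_zero _ h1),
    mul_pow' h.lam_mul h0, mul_pow' h.lam_mul h1, h.lX0, h.lX1, h.lU U hU]
  ring

end Ords

/-- the series of a monomial times a unit. -/
theorem ser2_of_MU {G : ℂ × ℂ → ℂ} {i j : ℕ} (h : MU G i j) :
    ∃ U, IsUnit U ∧ ser2 G = MvPowerSeries.X 0 ^ i * MvPowerSeries.X 1 ^ j * U := by
  obtain ⟨U, hU, hU0, hG⟩ := h
  refine ⟨ser2 U, (isUnit_ser2_iff hU).2 hU0, ?_⟩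
  rw [ser2_congr hG, ser2_mul ((analyticAt_fst.fun_pow i).fun_mul (analyticAt_snd.fun_pow j)) hU,
    ser2_mul (analyticAt_fst.fun_pow i) (analyticAt_snd.fun_pow j), ser2_pow analyticAt_fst,
    ser2_pow analyticAt_snd, ser2_fst, ser2_snd]

/-! ### orders of the canonical element over the plane -/

section plane

variable {H : ℂ × ℂ → ℂ} (T : Tree H) {L F : Type*} [Field L] [Algebra ℂ L] [Field F]
  [Algebra ℂ F] {ι : MvPowerSeries (Fin 2) ℂ →ₐ[ℂ] F} {v lam : F → ℤ} {N : ℤ}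
  (hι : Ords ι v lam N)

include hι

theorem om_ne {w : List (Option ℂ)} (hw : w ∈ T.C) (d : Option ℂ) {p : L × L} (θ : L →ₐ[ℂ] F)
    (hp : mp θ p = mp ι (blA d (serP (GG T w d)))) {i j : ℕ} (hJ : MU (jac (T.Th w d)) i j) :
    om w p ≠ 0 := by
  obtain ⟨U, hU, hJU⟩ := ser2_of_MU hJ
  have h1 : ser2 (jac (T.Th w d)) ≠ 0 := by
    rw [hJU]
    exact mul_ne_zero (mul_ne_zero (pow_ne_zero _ (X_ne_zero 0)) (pow_ne_zero _ (X_ne_zero 1)))
      hU.ne_zero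
  intro h0
  cases d with
  | some c =>
    have h2 := theta_om_some T hw c ι θ hp
    rw [h0, map_zero] at h2
    exact hι.ne (mul_ne_zero (X_ne_zero 0) h1) h2.symm
  | none =>
    have h2 := theta_om_none T hw ι θ hp
    rw [h0, map_zero] at h2
    exact hι.ne (mul_ne_zero (neg_ne_zero.2 (mul_ne_zero (X_ne_zero 0) h1))
      (pow_ne_zero _ (serP_GG_snd_ne T hw none))) h2.symm

/-- the first order of the canonical element. -/
theorem v_om {w : List (Option ℂ)} (hw : w ∈ T.C) (d : Option ℂ) {p : L × L} (θ : L →ₐ[ℂ] F)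
    (hp : mp θ p = mp ι (blA d (serP (GG T w d)))) {i j : ℕ} (hJ : MU (jac (T.Th w d)) i j) :
    v (θ (om w p)) = N * (i + 1) := by
  obtain ⟨U, hU, hJU⟩ := ser2_of_MU hJ
  cases d with
  | some c =>
    rw [theta_om_some T hw c ι θ hp, hJU]
    have h1 : MvPowerSeries.X (0 : Fin 2) * (MvPowerSeries.X 0 ^ i * MvPowerSeries.X 1 ^ j * U) =
        MvPowerSeries.X 0 ^ (i + 1) * MvPowerSeries.X 1 ^ j * U := by ring
    rw [h1, hι.v_mon _ _ hU]
    push_cast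
    ring
  | none =>
    obtain ⟨R, hR⟩ := serP_GG_snd T hw (none : Option ℂ)
    rw [theta_om_none T hw ι θ hp, hJU, hR]
    have h1 : -(MvPowerSeries.X (0 : Fin 2) * (MvPowerSeries.X 0 ^ i * MvPowerSeries.X 1 ^ j * U)) =
        MvPowerSeries.X 0 ^ (i + 1) * MvPowerSeries.X 1 ^ j * -U := by ring
    have hB : ι (MvPowerSeries.X 1 + MvPowerSeries.X 0 * R) ≠ 0 := hι.ne (by
      rw [← hR]
      exact serP_GG_snd_ne T hw none)
    have h2 : MvPowerSeries.X (0 : Fin 2) ^ (i + 1) * MvPowerSeries.X 1 ^ j * -U ≠ 0 :=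
      mul_ne_zero (mul_ne_zero (pow_ne_zero _ (X_ne_zero 0)) (pow_ne_zero _ (X_ne_zero 1)))
        hU.neg.ne_zero
    rw [h1, map_mul, hι.v_mul _ _ (hι.ne h2) (by
      rw [map_pow]
      exact pow_ne_zero _ hB), hι.v_mon _ _ hU.neg, map_pow, mul_pow' hι.v_mul hB, hι.vB]
    push_cast
    ring

/-- the second order of the canonical element, place `some c`. -/
theorem l_om_some {w : List (Option ℂ)} (hw : w ∈ T.C) (c : ℂ) {p : L × L} (θ : L →ₐ[ℂ] F)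
    (hp : mp θ p = mp ι (blA (some c) (serP (GG T w (some c))))) {i j : ℕ}
    (hJ : MU (jac (T.Th w (some c))) i j) : lam (θ (om w p)) = N * j := by
  obtain ⟨U, hU, hJU⟩ := ser2_of_MU hJ
  rw [theta_om_some T hw c ι θ hp, hJU]
  have h1 : MvPowerSeries.X (0 : Fin 2) * (MvPowerSeries.X 0 ^ i * MvPowerSeries.X 1 ^ j * U) =
      MvPowerSeries.X 0 ^ (i + 1) * MvPowerSeries.X 1 ^ j * U := by ring
  rw [h1, hι.l_mon _ _ hU]

/-- the second order of the canonical element, place `none`. -/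
theorem l_om_none {w : List (Option ℂ)} (hw : w ∈ T.C) {p : L × L} (θ : L →ₐ[ℂ] F)
    (hp : mp θ p = mp ι (blA none (serP (GG T w none)))) {i j : ℕ}
    (hJ : MU (jac (T.Th w none)) i j) : lam (θ (om w p)) = N * (j + 2) := by
  obtain ⟨U, hU, hJU⟩ := ser2_of_MU hJ
  obtain ⟨R, hR⟩ := serP_GG_snd T hw (none : Option ℂ)
  rw [theta_om_none T hw ι θ hp, hJU, hR]
  have h1 : -(MvPowerSeries.X (0 : Fin 2) * (MvPowerSeries.X 0 ^ i * MvPowerSeries.X 1 ^ j * U)) =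
      MvPowerSeries.X 0 ^ (i + 1) * MvPowerSeries.X 1 ^ j * -U := by ring
  have hB : ι (MvPowerSeries.X 1 + MvPowerSeries.X 0 * R) ≠ 0 := hι.ne (by
    rw [← hR]
    exact serP_GG_snd_ne T hw none)
  have h2 : MvPowerSeries.X (0 : Fin 2) ^ (i + 1) * MvPowerSeries.X 1 ^ j * -U ≠ 0 :=
    mul_ne_zero (mul_ne_zero (pow_ne_zero _ (X_ne_zero 0)) (pow_ne_zero _ (X_ne_zero 1)))
      hU.neg.ne_zero
  rw [h1, map_mul, hι.lam_mul _ _ (hι.ne h2) (by
    rw [map_pow]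
    exact pow_ne_zero _ hB), hι.l_mon _ _ hU.neg, map_pow, mul_pow' hι.lam_mul hB, hι.lB]
  push_cast
  ring

theorem eta_some {w : List (Option ℂ)} (hw : w ∈ T.C) (c : ℂ) {p : L × L} (θ : L →ₐ[ℂ] F)
    (hp : mp θ p = mp ι (blA (some c) (serP (GG T w (some c))))) :
    p.2 / p.1 - algebraMap ℂ L c ≠ 0 ∧ v (θ (p.2 / p.1 - algebraMap ℂ L c)) = 0 ∧
      lam (θ (p.2 / p.1 - algebraMap ℂ L c)) = N := by
  obtain ⟨R, hR⟩ := serP_GG_snd T hw (some c)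
  have h1 := theta_eta_some T c ι hι.inj θ hp
  have hB : ι (serP (GG T w (some c))).2 ≠ 0 := hι.ne (serP_GG_snd_ne T hw (some c))
  refine ⟨fun h2 => ?_, ?_, ?_⟩
  · rw [h2, map_zero] at h1
    exact hB h1.symm
  · rw [h1, hR, hι.vB]
  · rw [h1, hR, hι.lB]

theorem eta_none {w : List (Option ℂ)} (hw : w ∈ T.C) {p : L × L} (θ : L →ₐ[ℂ] F)
    (hp : mp θ p = mp ι (blA none (serP (GG T w none)))) :
    p.1 / p.2 ≠ 0 ∧ v (θ (p.1 / p.2)) = 0 ∧ lam (θ (p.1 / p.2)) = N := by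
  obtain ⟨R, hR⟩ := serP_GG_snd T hw (none : Option ℂ)
  have h1 := theta_eta_none T ι hι.inj θ hp
  have hB : ι (serP (GG T w none)).2 ≠ 0 := hι.ne (serP_GG_snd_ne T hw none)
  refine ⟨fun h2 => ?_, ?_, ?_⟩
  · rw [h2, map_zero] at h1
    exact hB h1.symm
  · rw [h1, hR, hι.vB]
  · rw [h1, hR, hι.lB]

end plane

/-! ### the weights of the differential of the coordinate at the places of a residue field -/

section wdd

variable {κ : Type*} [Field κ] [Algebra ℂ κ] [CFF ℂ κ] {P : Plk ℂ κ} {η : κ}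

theorem wd_some_eq {c : ℂ} {e N : ℤ} (he : 0 < e) (hN : 0 < N)
    (h : e * ord P (η - algebraMap ℂ κ c) = N) : e * (wd ℂ η P + 1) = N := by
  have h1 : 0 < ord P (η - algebraMap ℂ κ c) := by
    by_contra hcon
    have := mul_nonpos_of_nonneg_of_nonpos he.le (not_lt.1 hcon)
    omega
  rw [wd_fin h1, sub_add_cancel, h]

theorem wd_none_eq {e N : ℤ} (he : 0 < e) (hN : 0 < N) (h : e * ord P η = -N) :
    e * (wd ℂ η P + 1) = -N := by
  have h1 : ord P η < 0 := by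
    by_contra hcon
    have := mul_nonneg he.le (not_lt.1 hcon)
    omega
  rw [wd_pole h1, sub_add_cancel, h]

end wdd

/-! ### the adjunction equations -/

/-- a place of the residue field of a valuation of the function field of the surface, in a chart
`θ` of the plane. -/
structure PlD (L : Type*) {𝒦 κ F : Type*} [Field L] [Algebra ℂ L] [Field 𝒦] [Algebra L 𝒦] [Field κ]
    [Algebra ℂ κ] [CFF ℂ κ] [Field F] [Algebra ℂ F] (θ : L →ₐ[ℂ] F) (vF lF : F → ℤ)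
    {O : ValuationSubring 𝒦} (v : 𝒦 → ℤ) (ρ : Res O κ) (P : Plk ℂ κ) (lam : 𝒦 → ℤ)
    (e ka N : ℤ) : Prop where
  hv : NOrd O v
  he : 0 < e
  hka : 0 < ka
  hN : 0 < N
  lam_mul : ∀ x y, x ≠ 0 → y ≠ 0 → lam (x * y) = lam x + lam y
  lam_res : ∀ z : O, (z : 𝒦) ≠ 0 → v z = 0 → lam z = e * ord P (ρ.ρ z)
  base_v : ∀ x : L, x ≠ 0 → ka * v (algebraMap L 𝒦 x) = vF (θ x)
  base_l : ∀ x : L, x ≠ 0 → lam (algebraMap L 𝒦 x) = lF (θ x)
  hC : ∀ c : ℂ, algebraMap L 𝒦 (algebraMap ℂ L c) ∈ O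
  ρ_C : ∀ c : ℂ, ρ.ρ ⟨algebraMap L 𝒦 (algebraMap ℂ L c), hC c⟩ = algebraMap ℂ κ c

namespace PlD

variable {H : ℂ × ℂ → ℂ} (T : Tree H) {L 𝒦 κ F : Type*} [Field L] [Algebra ℂ L] [Field 𝒦]
  [Algebra L 𝒦] [Field κ] [Algebra ℂ κ] [CFF ℂ κ] [Field F] [Algebra ℂ F]
  {ι : MvPowerSeries (Fin 2) ℂ →ₐ[ℂ] F} {vF lF : F → ℤ} {N : ℤ} (hι : Ords ι vF lF N)
  {θ : L →ₐ[ℂ] F} {O : ValuationSubring 𝒦} {v : 𝒦 → ℤ} {ρ : Res O κ} {P : Plk ℂ κ}
  {lam : 𝒦 → ℤ} {e ka : ℤ} (hP : PlD L θ vF lF v ρ P lam e ka N)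

include hP

theorem v_zero {x : L} (hx : x ≠ 0) (h : vF (θ x) = 0) : v (algebraMap L 𝒦 x) = 0 := by
  have h1 := hP.base_v x hx
  rw [h] at h1
  exact (mul_eq_zero.1 h1).resolve_left hP.hka.ne'

theorem mem_of_v_zero {x : L} (hx : x ≠ 0) (h : vF (θ x) = 0) : algebraMap L 𝒦 x ∈ O :=
  (hP.hv.mem _).2 (Or.inr (hP.v_zero hx h).ge)

include hι

/-- the residue of `b/a`, place `some c`. -/
theorem ord_some {w : List (Option ℂ)} (hw : w ∈ T.C) (c : ℂ) {p : L × L}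
    (hp : mp θ p = mp ι (blA (some c) (serP (GG T w (some c)))))
    (hm : algebraMap L 𝒦 (p.2 / p.1) ∈ O) :
    e * ord P (ρ.ρ ⟨_, hm⟩ - algebraMap ℂ κ c) = N := by
  obtain ⟨h1, h2, h3⟩ := eta_some T hι hw c θ hp
  have h4 := hP.mem_of_v_zero h1 h2
  have h5 := hP.lam_res ⟨_, h4⟩ (by
    show algebraMap L 𝒦 _ ≠ 0
    rwa [Ne, map_eq_zero]) (hP.v_zero h1 h2)
  rw [hP.base_l _ h1, h3] at h5
  have h6 : (⟨_, h4⟩ : O) = ⟨_, hm⟩ - ⟨_, hP.hC c⟩ := Subtype.ext (by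
    show algebraMap L 𝒦 _ = algebraMap L 𝒦 _ - algebraMap L 𝒦 _
    rw [map_sub])
  rw [h6, map_sub, hP.ρ_C] at h5
  exact h5.symm

/-- the residue of `b/a`, place `none`. -/
theorem ord_none {w : List (Option ℂ)} (hw : w ∈ T.C) {p : L × L}
    (hp : mp θ p = mp ι (blA none (serP (GG T w none))))
    (hm : algebraMap L 𝒦 (p.2 / p.1) ∈ O) :
    e * ord P (ρ.ρ ⟨_, hm⟩) = -N := by
  obtain ⟨h1, h2, h3⟩ := eta_none T hι hw θ hp
  have h7 : p.2 / p.1 = (p.1 / p.2)⁻¹ := by rw [inv_div]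
  have h8 : p.2 / p.1 ≠ 0 := by
    rw [h7]
    exact inv_ne_zero h1
  have h9 : v (algebraMap L 𝒦 (p.2 / p.1)) = 0 := by
    rw [h7, map_inv₀, hP.hv.inv, hP.v_zero h1 h2, neg_zero]
  have h5 := hP.lam_res ⟨_, hm⟩ (by
    show algebraMap L 𝒦 _ ≠ 0
    rwa [Ne, map_eq_zero]) h9
  rw [← h5]
  show lam (algebraMap L 𝒦 (p.2 / p.1)) = -N
  rw [h7, map_inv₀, mul_inv' hP.lam_mul (by rwa [Ne, map_eq_zero]), hP.base_l _ h1, h3]

/-- **the adjunction equation at a place.** -/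
theorem adj {w : List (Option ℂ)} (hw : w ∈ T.C) (d : Option ℂ) {p : L × L}
    (hp : mp θ p = mp ι (blA d (serP (GG T w d)))) {i j : ℕ} (hJ : MU (jac (T.Th w d)) i j)
    (hm : algebraMap L 𝒦 (p.2 / p.1) ∈ O) {fz : 𝒦} (hfz : fz ≠ 0) :
    lam (algebraMap L 𝒦 (om w p) / fz) + e * (wd ℂ (ρ.ρ ⟨_, hm⟩) P + 1) =
      N * (j + 1) - lam fz := by
  have h0 := om_ne T hι hw d θ hp hJ
  have h1 : algebraMap L 𝒦 (om w p) ≠ 0 := by rwa [Ne, map_eq_zero]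
  rw [mul_div' hP.lam_mul h1 hfz, hP.base_l _ h0]
  cases d with
  | some c =>
    rw [wd_some_eq hP.he hP.hN (hP.ord_some T hι hw c hp hm), l_om_some T hι hw c θ hp hJ]
    ring
  | none =>
    rw [wd_none_eq hP.he hP.hN (hP.ord_none T hι hw hp hm), l_om_none T hι hw θ hp hJ]
    ring

/-- **the order of the canonical element.** -/
theorem adj_v {w : List (Option ℂ)} (hw : w ∈ T.C) (d : Option ℂ) {p : L × L}
    (hp : mp θ p = mp ι (blA d (serP (GG T w d)))) {i j : ℕ} (hJ : MU (jac (T.Th w d)) i j)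
    {fz : 𝒦} (hfz : fz ≠ 0) :
    ka * v (algebraMap L 𝒦 (om w p) / fz) = N * (i + 1) - ka * v fz := by
  have h0 := om_ne T hι hw d θ hp hJ
  have h1 : algebraMap L 𝒦 (om w p) ≠ 0 := by rwa [Ne, map_eq_zero]
  rw [hP.hv.div h1 hfz, mul_sub, hP.base_v _ h0, v_om T hι hw d θ hp hJ]

/-- the residue of `b/a` is not a constant. -/
theorem eta_nc {w : List (Option ℂ)} (hw : w ∈ T.C) (d : Option ℂ) {p : L × L}
    (hp : mp θ p = mp ι (blA d (serP (GG T w d)))) (hm : algebraMap L 𝒦 (p.2 / p.1) ∈ O) (a : ℂ) :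
    ρ.ρ ⟨_, hm⟩ ≠ algebraMap ℂ κ a := by
  intro h
  cases d with
  | some c =>
    have h1 := hP.ord_some T hι hw c hp hm
    rw [h, ← map_sub, ord_const, mul_zero] at h1
    exact hP.hN.ne h1
  | none =>
    have h1 := hP.ord_none T hι hw hp hm
    rw [h, ord_const, mul_zero] at h1
    have := hP.hN
    omega

end PlD

end Vale.Agent.P298.H955
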