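import Vale.Agent.P298.H955.Adj3
import Vale.Agent.P298.H701.Br9
import Vale.Agent.P298.H928.Val3

/-!
# The canonical data of the vertices, part 4: the orders of helper701, with `N`-th powers
-/

open Filter Topology

namespace Vale.Agent.P298.H955

open Vale.Agent.P298 Vale.Agent.P298.H701 Vale.Agent.P298.H928 Vale.Agent.P298.H416
  Vale.Agent.P298.H983 Vale.Agent.P298.H707

/-- the substitution `(a, b) ↦ (a^N, b^N)`. -/
noncomputable def pw (N : ℕ) (hN : N ≠ 0) :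
    MvPowerSeries (Fin 2) ℂ →ₐ[ℂ] MvPowerSeries (Fin 2) ℂ :=
  bas (fun q : ℂ × ℂ => (q.1 ^ N, q.2 ^ N)) (powK_an N) (powK_zero hN)

theorem pw_X0 (N : ℕ) (hN : N ≠ 0) : pw N hN (MvPowerSeries.X 0) = MvPowerSeries.X 0 ^ N := by
  have h := bas_ser2 (powK_an N) (powK_zero hN) (F := fun q : ℂ × ℂ => q.1) analyticAt_fst
  rw [ser2_fst] at h
  rw [pw, h, ser2_pow analyticAt_fst, ser2_fst]

theorem pw_X1 (N : ℕ) (hN : N ≠ 0) : pw N hN (MvPowerSeries.X 1) = MvPowerSeries.X 1 ^ N := by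
  have h := bas_ser2 (powK_an N) (powK_zero hN) (F := fun q : ℂ × ℂ => q.2) analyticAt_snd
  rw [ser2_snd] at h
  rw [pw, h, ser2_pow analyticAt_snd, ser2_snd]

theorem lam_sA_X0_pow (N : ℕ) : lam (sA (MvPowerSeries.X 0 ^ N)) = ((N : ℤ), 0) := by
  have := lam_monomial N 0
  rwa [pow_zero, mul_one] at this

theorem lam_sA_X1_pow (N : ℕ) : lam (sA (MvPowerSeries.X 1 ^ N)) = (0, (N : ℤ)) := by
  have := lam_monomial 0 N
  rwa [pow_zero, one_mul] at this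

theorem lam_X1_pow_add {N : ℕ} (hN : N ≠ 0) (R : MvPowerSeries (Fin 2) ℂ) :
    lam (sA (MvPowerSeries.X 1 ^ N + MvPowerSeries.X 0 ^ N * R)) = (0, (N : ℤ)) := by
  obtain ⟨m, rfl⟩ := Nat.exists_eq_succ_of_ne_zero hN
  have h1 : MvPowerSeries.X 1 ^ (m + 1) + MvPowerSeries.X 0 ^ (m + 1) * R =
      MvPowerSeries.X 1 ^ (m + 1) +
        MvPowerSeries.X (0 : Fin 2) * (MvPowerSeries.X 0 ^ m * R) := by ring
  have h2 := lam_sA_X1_pow (m + 1)
  rw [Nat.succ_eq_add_one, h1, lam_add_X0 (pow_ne_zero _ (X_ne_zero 1)) (congrArg Prod.fst h2), h2]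

theorem powK_jac {N : ℕ} (hN : N ≠ 0) : ∃ᶠ q in 𝓝 (0 : ℂ × ℂ),
    jacP (fun q : ℂ × ℂ => (q.1 ^ N, q.2 ^ N)) q ≠ 0 := by
  have h1 : ∀ q : ℂ × ℂ, jacP (fun q : ℂ × ℂ => (q.1 ^ N, q.2 ^ N)) q =
      q.1 ^ (N - 1) * q.2 ^ (N - 1) * ((N : ℂ) * N) := by
    intro q
    have h2 : HasFDerivAt (fun q : ℂ × ℂ => q.1 ^ N)
        ((N * q.1 ^ (N - 1)) • ContinuousLinearMap.fst ℂ ℂ ℂ) q := by
      have := (hasFDerivAt_fst (𝕜 := ℂ) (p := q)).pow N
      simpa using this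
    have h3 : HasFDerivAt (fun q : ℂ × ℂ => q.2 ^ N)
        ((N * q.2 ^ (N - 1)) • ContinuousLinearMap.snd ℂ ℂ ℂ) q := by
      have := (hasFDerivAt_snd (𝕜 := ℂ) (p := q)).pow N
      simpa using this
    have h4 : HasFDerivAt (fun q : ℂ × ℂ => ((q.1 ^ N, q.2 ^ N) : ℂ × ℂ)) _ q := h2.prodMk h3
    rw [jacP, h4.fderiv]
    simp
    ring
  have h2 := frequently_ne (i := N - 1) (j := N - 1) (V := fun _ : ℂ × ℂ => ((N : ℂ) * N))
    analyticAt_const (mul_ne_zero (Nat.cast_ne_zero.2 hN) (Nat.cast_ne_zero.2 hN))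
  exact h2.mono fun q hq => by rwa [h1]

theorem pw_injective (N : ℕ) (hN : N ≠ 0) : Function.Injective (pw N hN) :=
  bas_injective _ _ (powK_jac hN)

/-- **the orders of a field over the iterated Laurent series.** -/
theorem ords_of {F : Type*} [Field F] [Algebra ℂ F] {ι : MvPowerSeries (Fin 2) ℂ →ₐ[ℂ] F}
    (j : F →+* OM) {N : ℕ} (hN : N ≠ 0) (hj : ∀ x, j (ι x) = sA (pw N hN x)) :
    Ords ι (fun z => (lam (j z)).1) (fun z => (lam (j z)).2) N := by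
  have hne : ∀ z : F, z ≠ 0 → j z ≠ 0 := fun z hz => (map_ne_zero_iff j j.injective).2 hz
  refine ⟨fun x y h => pw_injective N hN (sA_injective ?_), fun x y hx hy => ?_,
    fun x y hx hy => ?_, ?_, ?_, ?_, ?_, fun U hU => ?_, fun U hU => ?_, fun R => ?_, fun R => ?_⟩
  · rw [← hj, ← hj, h]
  · rw [map_mul, lam_mul (hne x hx) (hne y hy), Prod.fst_add]
  · rw [map_mul, lam_mul (hne x hx) (hne y hy), Prod.snd_add]
  · rw [hj, pw_X0, lam_sA_X0_pow]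
  · rw [hj, pw_X0, lam_sA_X0_pow]
  · rw [hj, pw_X1, lam_sA_X1_pow]
  · rw [hj, pw_X1, lam_sA_X1_pow]
  · rw [hj, (lam_sA_eq_zero_iff (hU.map (pw N hN)).ne_zero).2 (hU.map (pw N hN))]
    rfl
  · rw [hj, (lam_sA_eq_zero_iff (hU.map (pw N hN)).ne_zero).2 (hU.map (pw N hN))]
    rfl
  · rw [hj, map_add, map_mul, pw_X0, pw_X1, lam_X1_pow_add hN]
  · rw [hj, map_add, map_mul, pw_X0, pw_X1, lam_X1_pow_add hN]

end Vale.Agent.P298.H955
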