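import Vale.Agent.P298.H955.Adj3
import Vale.Agent.P298.H928.Val3
import Vale.Agent.P298.H416.Surf3
import Vale.Agent.P298.H707.JT2

/-!
# The canonical data of the vertices, part 5: the function field of the base and the orders of
helper416
-/

open Filter Topology

namespace Vale.Agent.P298.H955

open Vale.Agent.P298 Vale.Agent.P298.H928 Vale.Agent.P298.H983 Vale.Agent.P298.H707
  Vale.Agent.P298.FF
open Vale.Agent.P298.H701
open Vale.Agent.P298.H416 hiding R2

/-- the coordinates of the vertex. -/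
theorem psiA_ab (w : List (Option ℂ)) : psiA w (ab w) = (x0, x1) := by
  induction w with
  | nil => rfl
  | cons d w ih =>
    obtain ⟨h1, h2⟩ := ab_ne w
    rw [psiA_cons, ← ih]
    congr 1
    cases d with
    | none =>
      show ((ab w).2 * ((ab w).1 / (ab w).2), (ab w).2) = ab w
      refine Prod.ext ?_ rfl
      field_simp
    | some c =>
      show ((ab w).1, (ab w).1 * ((ab w).2 / (ab w).1 - algebraMap ℂ L0 c + algebraMap ℂ L0 c)) =
        ab w
      refine Prod.ext rfl ?_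
      simp only [sub_add_cancel]
      field_simp

/-- the canonical element of the vertex `w`. -/
noncomputable def omw (w : List (Option ℂ)) : L0 := om w (ab w)

/-- a homomorphism of the field of the base, as an algebra homomorphism. -/
noncomputable def algL {F : Type*} [Field F] [Algebra ℂ F] (θ : L0 →+* F) (ι : R2 →ₐ[ℂ] F)
    (β : R2 →ₐ[ℂ] R2) (h : ∀ g, θ (algebraMap R2 L0 g) = ι (β g)) : L0 →ₐ[ℂ] F :=
  { θ with
    commutes' := fun c => by
      have h1 : algebraMap ℂ L0 c = algebraMap R2 L0 (algebraMap ℂ R2 c) :=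
        IsScalarTower.algebraMap_apply ℂ R2 L0 c
      show θ (algebraMap ℂ L0 c) = _
      rw [h1, h, AlgHom.commutes, AlgHom.commutes] }

theorem algL_apply {F : Type*} [Field F] [Algebra ℂ F] (θ : L0 →+* F) (ι : R2 →ₐ[ℂ] F)
    (β : R2 →ₐ[ℂ] R2) (h : ∀ g, θ (algebraMap R2 L0 g) = ι (β g)) (x : L0) :
    algL θ ι β h x = θ x := rfl

/-- the series with `N`-th powers in the field. -/
noncomputable def ioT (N : ℕ) (hN : 0 < N) : R2 →ₐ[ℂ] L0 :=
  (IsScalarTower.toAlgHom ℂ R2 L0).comp (H416.pw N hN)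

theorem ioT_apply (N : ℕ) (hN : 0 < N) (g : R2) :
    ioT N hN g = algebraMap R2 L0 (H416.pw N hN g) := rfl

theorem ioT_pwOm (N : ℕ) (hN : 0 < N) (g : R2) :
    ioT N hN g = pwOm N hN (algebraMap R2 Om g) := by
  rw [ioT_apply, pwOm, omMap_alg]

/-- **the orders of helper416, with `N`-th powers.** -/
theorem ords_Ta (N : ℕ) (hN : 0 < N) : Ords (ioT N hN) Ta.v Ta.lam N := by
  have hv : ∀ g, Ta.v (ioT N hN g) = N * Ta.v (algebraMap R2 Om g) := fun g => by
    rw [ioT_pwOm]
    exact (pwOm_val N hN _).1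
  have hl : ∀ g, Ta.lam (ioT N hN g) = N * Ta.lam (algebraMap R2 Om g) := fun g => by
    rw [ioT_pwOm]
    exact (pwOm_val N hN _).2
  have h0 := Ta_mono (F := MvPowerSeries.X 0) (U := 1) (i := 1) (k := 0) isUnit_one (by simp)
  have h1 := Ta_mono (F := MvPowerSeries.X 1) (U := 1) (i := 0) (k := 1) isUnit_one (by simp)
  have hB : ∀ R : R2, Lead (MvPowerSeries.X 1 + MvPowerSeries.X 0 * R) 0 1 1 := fun R =>
    ⟨one_ne_zero, 0, R, by rw [map_one]; ring⟩
  have hU : ∀ U : R2, IsUnit U → Ta.v (algebraMap R2 Om U) = 0 ∧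
      Ta.lam (algebraMap R2 Om U) = 0 := fun U hU => by
    have h := Ta_mono (F := U) (U := U) (i := 0) (k := 0) hU (by simp)
    exact ⟨h.1, h.2.1⟩
  refine ⟨fun x y h => pw_injective N hN ?_, fun x y hx hy => Ta.hv.mul x y hx hy, fun x y hx hy =>
    Ta.lam_mul x y hx hy, ?_, ?_, ?_, ?_, fun U h => ?_, fun U h => ?_, fun R => ?_, fun R => ?_⟩
  · exact IsFractionRing.injective R2 L0 h
  · rw [hv, h0.1]
    simp
  · rw [hl, h0.2.1]
    simp
  · rw [hv, h1.1]
    simp
  · rw [hl, h1.2.1]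
    simp
  · rw [hv, (hU U h).1, mul_zero]
  · rw [hl, (hU U h).2, mul_zero]
  · rw [hv, (Ta_lead (hB R)).1]
    simp
  · rw [hl, (Ta_lead (hB R)).2.1]
    simp

variable {H : ℂ × ℂ → ℂ}

theorem an_ThT (T : Tree H) (i : PlT T) : AnalyticAt ℂ (ThT T i) 0 := T.analyticAt_Th i.1.2 i.2

theorem ThT_zero (T : Tree H) (i : PlT T) : ThT T i 0 = 0 := T.Th_zero i.1.2 i.2

end Vale.Agent.P298.H955
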