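import Vale.Agent.P298.H955.Adj5

/-!
# The canonical data of the components of a surface over the tree
-/

set_option linter.style.haveILetI false

open Filter Topology

noncomputable section

namespace Vale.Agent.P298.H955

open Vale.Agent.P298 Vale.Agent.P298.H928 Vale.Agent.P298.H983 Vale.Agent.P298.H707
  Vale.Agent.P298.FF Vale.Agent.P298.H400
open Vale.Agent.P298.H701
open Vale.Agent.P298.H416 hiding R2

variable {H : ℂ × ℂ → ℂ} {K R : Type} [Field K] [Algebra ℂ K] [Algebra L0 K]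
    [IsScalarTower ℂ L0 K] [FiniteDimensional L0 K] [Algebra.IsSeparable L0 K]
    [CommRing R] [Algebra ℂ R] [Algebra R K] [IsScalarTower ℂ R K]

/-- the surface lies over the tree of charts. -/
structure Over (T : Tree H) (S : Surf L0 K R) where
  /-- the word of a vertex. -/
  wo : S.V → {w : List (Option ℂ) // w ∈ T.C}
  hθ : ∀ (p : S.V × Option ℂ) (g : R2), S.θ p (algebraMap R2 L0 g) =
    algebraMap R2 L0 (bas (ThT T (wo p.1, p.2)) (an_ThT T _) (ThT_zero T _) g)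

namespace Over

variable {T : Tree H} {S : Surf L0 K R} (G : Over T S)

/-- the place of the tree. -/
def pt (p : S.V × Option ℂ) : PlT T := (G.wo p.1, p.2)

theorem phi_alg (p : S.V × Option ℂ) (g : R2) : S.phi p (algebraMap R2 L0 g) =
    ioT S.N S.hN (bas (ThT T (G.pt p)) (an_ThT T _) (ThT_zero T _) g) := by
  rw [Surf.phi_apply, G.hθ, ioT_pwOm]
  rfl

/-- the chart of the base as an algebra homomorphism. -/
def phiA (p : S.V × Option ℂ) : L0 →ₐ[ℂ] L0 :=
  algL (S.phi p) (ioT S.N S.hN) (bas (ThT T (G.pt p)) (an_ThT T _) (ThT_zero T _)) (G.phi_alg p)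

theorem phiA_apply (p : S.V × Option ℂ) (x : L0) : G.phiA p x = S.phi p x := rfl

theorem coord (p : S.V × Option ℂ) : mp (G.phiA p) (ab (G.pt p).1.1) =
    mp (ioT S.N S.hN) (blA (G.pt p).2 (serP (GG T (G.pt p).1.1 (G.pt p).2))) := by
  set i := G.pt p with hi
  refine theta_coord T i.1.2 i.2 x0_ne (psiA_ab i.1.1) (ioT S.N S.hN) (G.phiA p) ?_
  have h1 : bas (ThT T i) (an_ThT T i) (ThT_zero T i) (MvPowerSeries.X 0) =
      ser2 fun q => (ThT T i q).1 := by
    have h := bas_ser2 (an_ThT T i) (ThT_zero T i) (F := fun q : ℂ × ℂ => q.1) analyticAt_fst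
    rwa [ser2_fst] at h
  have h2 : bas (ThT T i) (an_ThT T i) (ThT_zero T i) (MvPowerSeries.X 1) =
      ser2 fun q => (ThT T i q).2 := by
    have h := bas_ser2 (an_ThT T i) (ThT_zero T i) (F := fun q : ℂ × ℂ => q.2) analyticAt_snd
    rwa [ser2_snd] at h
  refine Prod.ext ?_ ?_
  · show S.phi p (algebraMap R2 L0 (MvPowerSeries.X 0)) = _
    rw [G.phi_alg, ← hi, h1]
    rfl
  · show S.phi p (algebraMap R2 L0 (MvPowerSeries.X 1)) = _
    rw [G.phi_alg, ← hi, h2]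
    rfl

/-- **the data of a place.** -/
theorem plD (q : S.Q) : PlD L0 (G.phiA (S.cht q)) Ta.v Ta.lam (S.vv q.1) (resCan q.1.2.val) q.2
    (S.lam q) (S.e1 q) (S.ka q) S.N where
  hv := S.hvv q.1
  he := S.e1_pos q
  hka := S.ka_pos q
  hN := by exact_mod_cast S.hN
  lam_mul := S.lam_mul q
  lam_res := S.lam_res q
  base_v x hx := by
    rw [← S.psq_v, (S.psq q).comm]
    rfl
  base_l x hx := by
    rw [Surf.lam, (S.psq q).comm]
    rfl
  hC c := by
    rw [← IsScalarTower.algebraMap_apply ℂ L0 K]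
    exact ovr_hC (S.hC q.1.1) q.1.2 c
  ρ_C c := by
    refine congrArg (IsLocalRing.residue q.1.2.val) (Subtype.ext ?_)
    exact (IsScalarTower.algebraMap_apply ℂ L0 K c).symm

theorem ow_et (v : S.V) : S.ow v (etaw (G.wo v)) = 0 := by
  have hN : (S.N : ℤ) ≠ 0 := by exact_mod_cast S.hN.ne'
  obtain ⟨h1, h2, -⟩ := eta_none T (ords_Ta S.N S.hN) (G.wo v).2 (G.phiA (v, none))
    (G.coord (v, none))
  have h3 : Ta.v (S.phi (v, none) ((ab (G.wo v).1).1 / (ab (G.wo v).1).2)) = 0 := h2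
  rw [S.phi_v] at h3
  have h4 : etaw (G.wo v) = ((ab (G.wo v).1).1 / (ab (G.wo v).1).2)⁻¹ := by
    rw [inv_div]
    rfl
  rw [h4, (S.hW v).inv, (mul_eq_zero.1 h3).resolve_left hN, neg_zero]

theorem et_mem (i : S.I) : algebraMap L0 K (etaw (G.wo i.1)) ∈ i.2.val :=
  ((S.hvv i).mem _).2 (Or.inr (by rw [S.vv_alg, G.ow_et, mul_zero]))

/-- the coordinate of the base in the residue field. -/
def eta (i : S.I) : IsLocalRing.ResidueField i.2.val :=
  IsLocalRing.residue i.2.val ⟨algebraMap L0 K (etaw (G.wo i.1)), G.et_mem i⟩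

/-- the canonical element of a component. -/
def omS (fz : K) (i : S.I) : K := algebraMap L0 K (omw (G.wo i.1)) / fz

/-- the canonical orders. -/
def KS (fz : K) (i : S.I) : ℤ := S.vv i (G.omS fz i) - 1

theorem omS_v (fz : K) (i : S.I) : S.vv i (G.omS fz i) = G.KS fz i + 1 := by
  rw [KS, sub_add_cancel]

theorem cht_eq {q q' : S.Q} (h : S.nb q = some q') : S.nd (S.cht q) = some (S.cht q') := by
  cases h1 : S.nd (S.cht q) with
  | none =>
    rw [Surf.nb_none h1] at h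
    exact absurd h (by simp)
  | some p' =>
    rw [Surf.nb_some h1, Option.some.injEq] at h
    rw [← h, Surf.cht_pl]

theorem cht_none {q : S.Q} (h : S.nb q = none) : S.nd (S.cht q) = none := by
  cases h1 : S.nd (S.cht q) with
  | none => rfl
  | some p' =>
    rw [Surf.nb_some h1] at h
    exact absurd h (by simp)

/-- **the order of the canonical element along the curve.** -/
theorem ka_eq {fz : K} (hfz : fz ≠ 0) (q : S.Q) {a b : ℕ}
    (hJ : MonU (jacP (ThT T (G.pt (S.cht q)))) a b) :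
    (S.N * (a + 1) : ℤ) - S.ka q * S.vv q.1 fz = S.ka q * (G.KS fz q.1 + 1) := by
  rw [← G.omS_v]
  exact ((G.plD q).adj_v T (ords_Ta S.N S.hN) (G.pt (S.cht q)).1.2 _ (G.coord _) hJ hfz).symm

/-- **the adjunction equation at a place.** -/
theorem adj_eq {fz : K} (hfz : fz ≠ 0) (q : S.Q) {a b : ℕ}
    (hJ : MonU (jacP (ThT T (G.pt (S.cht q)))) a b) :
    S.lam q (G.omS fz q.1) + S.e1 q * (wd ℂ (G.eta q.1) q.2 + 1) =
      (S.N * (b + 1) : ℤ) - S.lam q fz :=
  (G.plD q).adj T (ords_Ta S.N S.hN) (G.pt (S.cht q)).1.2 _ (G.coord _) hJ (G.et_mem q.1) hfz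

theorem eta_nc (q : S.Q) (a : ℂ) :
    G.eta q.1 ≠ algebraMap ℂ (IsLocalRing.ResidueField q.1.2.val) a :=
  (G.plD q).eta_nc T (ords_Ta S.N S.hN) (G.pt (S.cht q)).1.2 _ (G.coord _) (G.et_mem q.1) a

end Over

/-! ### the equations at nodes and at free places -/

section node

variable {D : ℂ × ℂ → ℂ} {T : Tree fun p => p.1 * D p} {S : Surf L0 K R}

/-- the partners of the charts. -/
structure Nodes (G : Over T S) : Prop where
  node : ∀ p p', S.nd p = some p' → NodeT (G.pt p) (G.pt p') ∨ NodeT (G.pt p') (G.pt p)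
  free : ∀ p, S.nd p = none → (G.pt p).2 :: (G.pt p).1.1 ∉ T.C ∧ ¬ exc ((G.pt p).2 :: (G.pt p).1.1)

/-- the order of the derivative. -/
structure Der (G : Over T S) (fz : K) : Prop where
  ne : fz ≠ 0
  node : ∀ q : S.Q, ∃ (p : S.V × Option ℂ) (ψ : S.Emb p), Surf.pl ψ = q ∧
    Ta.v (swOm (ψ.f fz)) = Ta.lam (ψ.f fz)
  free : ∀ q : S.Q, S.nb q = none → (S.N : ℤ) - S.lam q fz = S.e2 q

variable {G : Over T S} {fz : K}

namespace Nodes

variable (hG : Nodes G)

include hG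

theorem jac_node {p p' : S.V × Option ℂ} (h : S.nd p = some p') {a b a' b' : ℕ}
    (hJ : MonU (jacP (ThT T (G.pt p))) a b) (hJ' : MonU (jacP (ThT T (G.pt p'))) a' b') :
    b = a' := by
  obtain ⟨b₀, h1, -, h2, h3⟩ := monU_jac_place T (G.pt p)
  obtain ⟨b₁, h1', -⟩ := monU_jac_place T (G.pt p')
  have e1 := (hJ.unique h1).2
  have e2 := (hJ'.unique h1').1
  rcases hG.node p p' h with h4 | h4
  · rw [e1, e2, h2 h4.1 _ h4]
  · rw [e1, e2, h3 _ h4]

theorem jac_free {p : S.V × Option ℂ} (h : S.nd p = none) {a b : ℕ}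
    (hJ : MonU (jacP (ThT T (G.pt p))) a b) : b = 0 := by
  obtain ⟨b₀, h1, h2, -⟩ := monU_jac_place T (G.pt p)
  rw [(hJ.unique h1).2, h2 (hG.free p h).1 (hG.free p h).2]

end Nodes

theorem Der.lam_eq (hD : Der G fz) {q q' : S.Q} (h : S.nb q = some q') :
    S.lam q fz = S.ka q' * S.vv q'.1 fz := by
  obtain ⟨p, ψ, rfl, h1⟩ := hD.node q
  have h2 := Over.cht_eq h
  rw [Surf.cht_pl] at h2
  rw [Surf.nb_pl ψ h2, Option.some.injEq] at h
  rw [← h, ← Surf.pl_v, Surf.Emb.swE_f, h1, Surf.pl_lam]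

/-- **adj_node.** -/
theorem adj_node (hG : Nodes G) (hD : Der G fz) {q q' : S.Q} (h : S.nb q = some q')
    (he : S.e2 q = S.ka q') :
    S.lam q (G.omS fz q.1) + S.e1 q * (wd ℂ (G.eta q.1) q.2 + 1) =
      S.e2 q * (G.KS fz q'.1 + 1) := by
  obtain ⟨b, h1, -⟩ := monU_jac_place T (G.pt (S.cht q))
  obtain ⟨b', h1', -⟩ := monU_jac_place T (G.pt (S.cht q'))
  rw [G.adj_eq hD.ne q h1, he, ← G.ka_eq hD.ne q' h1', hD.lam_eq h,
    hG.jac_node (Over.cht_eq h) h1 h1']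

/-- **adj_free.** -/
theorem adj_free (hG : Nodes G) (hD : Der G fz) {q : S.Q} (h : S.nb q = none) :
    S.lam q (G.omS fz q.1) + S.e1 q * (wd ℂ (G.eta q.1) q.2 + 1) = S.e2 q := by
  obtain ⟨b, h1, -⟩ := monU_jac_place T (G.pt (S.cht q))
  rw [G.adj_eq hD.ne q h1, hG.jac_free (Over.cht_none h) h1, ← hD.free q h]
  push_cast
  ring

/-- **canA.** -/
theorem canA (hfz : fz ≠ 0) {p : S.V × Option ℂ} (ψ : S.Emb p) {a b : ℕ} {c : ℤ}
    (hJ : MonU (jacP (ThT T (G.pt p))) a b) (hc : Ta.v (ψ.f fz) = c) :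
    (S.N * (a + 1) : ℤ) - c = S.ka (Surf.pl ψ) * (G.KS fz (Surf.pl ψ).1 + 1) := by
  rw [← hc, Surf.pl_v]
  refine G.ka_eq hfz (Surf.pl ψ) (b := b) ?_
  rwa [Surf.cht_pl]

/-- **canB.** -/
theorem canB (hG : Nodes G) (hD : Der G fz) (he : ∀ q q' : S.Q, S.nb q = some q' →
    S.e2 q = S.ka q') {p : S.V × Option ℂ} (ψ : S.Emb p) {a b : ℕ} {d : ℤ}
    (hJ : MonU (jacP (ThT T (G.pt p))) a b) (hd : Ta.lam (ψ.f fz) = d) :
    (S.N * (b + 1) : ℤ) - d = S.e2 (Surf.pl ψ) *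
      ((S.nb (Surf.pl ψ)).elim 1 (fun q => G.KS fz q.1 + 1)) := by
  rw [← hd, Surf.pl_lam]
  cases h : S.nb (Surf.pl ψ) with
  | none =>
    have h1 := Over.cht_none h
    rw [Surf.cht_pl] at h1
    rw [hG.jac_free h1 hJ, Option.elim_none, mul_one, ← hD.free _ h]
    push_cast
    ring
  | some q' =>
    have h1 := Over.cht_eq h
    rw [Surf.cht_pl] at h1
    obtain ⟨b', h1', -⟩ := monU_jac_place T (G.pt (S.cht q'))
    rw [Option.elim_some, he _ _ h, ← G.ka_eq hD.ne q' h1', hD.lam_eq h,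
      hG.jac_node h1 hJ h1']

end node

end Vale.Agent.P298.H955
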