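import Vale.Agent.P298.H955.Adj6
import Vale.Agent.P298.H928.SurfT
import Vale.Agent.P298.H928.NdT

/-!
# The canonical data of the components, for the surface over a tree
-/

set_option linter.style.haveILetI false

open Filter Topology

noncomputable section

namespace Vale.Agent.P298.H955

open Vale.Agent.P298 Vale.Agent.P298.H928 Vale.Agent.P298.H983 Vale.Agent.P298.H707
  Vale.Agent.P298.FF Vale.Agent.P298.H400
open Vale.Agent.P298.H701
open Vale.Agent.P298.H416 hiding R2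

variable {K R : Type} [Field K] [Algebra ℂ K] [Algebra L0 K]
    [IsScalarTower ℂ L0 K] [FiniteDimensional L0 K] [Algebra.IsSeparable L0 K]
    [CommRing R] [Algebra ℂ R] [Algebra R K] [IsScalarTower ℂ R K]

section gen

variable {D : ℂ × ℂ → ℂ} {T : Tree fun p => p.1 * D p} {S : Surf L0 K R} (G : Over T S)

theorem Over.omw_ne (v : S.V) : omw (G.wo v) ≠ 0 := by
  obtain ⟨b, h1, -⟩ := monU_jac_place T (G.pt (v, none))
  exact om_ne T (ords_Ta S.N S.hN) (G.wo v).2 none (G.phiA (v, none)) (G.coord (v, none)) h1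

/-- **ω_ne.** -/
theorem Over.omS_ne {fz : K} (hfz : fz ≠ 0) (i : S.I) : G.omS fz i ≠ 0 :=
  div_ne_zero ((_root_.map_ne_zero _).2 (G.omw_ne i.1)) hfz

/-- **η_nc.** -/
theorem Over.eta_nc' (i : S.I) (a : ℂ) :
    G.eta i ≠ algebraMap ℂ (IsLocalRing.ResidueField i.2.val) a := by
  obtain ⟨P⟩ := nonempty_Plk (k := ℂ) (F := IsLocalRing.ResidueField i.2.val)
  exact G.eta_nc ⟨i, P⟩ a

end gen

section inst

variable {H : ℂ × ℂ → ℂ} (T : Tree H) (hH0 : H 0 = 0) (N : ℕ) (hN : 0 < N)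
    (nd : PlT T → Option (PlT T))
    (nd_symm : ∀ p p', nd p = some p' → nd p' = some p)
    (nd_ne : ∀ p p', nd p = some p' → p'.1 ≠ p.1)
    (nd_fin : {p | nd p ≠ none}.Finite)
    (hnd : ∀ p p', nd p = some p' → NodeT p p' ∨ NodeT p' p)
    (split : ∀ (p : PlT T) (g : K),
      ((minpoly L0 g).map ((pwOm N hN).comp (T.thL p.1.2 p.2 1 one_ne_zero))).Splits)
    (hR : ∀ (p : PlT T) (ψ : K →+* Om),
      (∀ x : L0, ψ (algebraMap L0 K x) = pwOm N hN (T.thL p.1.2 p.2 1 one_ne_zero x)) →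
      ∀ h : R, ∃ F : R2, ψ (algebraMap R K h) = algebraMap R2 Om F)
    (inj : Function.Injective (algebraMap R K))

/-- **the surface of a tree lies over the tree.** -/
def overT : Over T (surfT T hH0 N hN nd nd_symm nd_ne nd_fin hnd split hR inj) where
  wo := id
  hθ p g := by
    refine (T.thL_algebraMap p.1.2 p.2 1 one_ne_zero g).trans (congrArg _ ?_)
    have h1 : tk (T.Th p.1.1 p.2) 1 = ThT T p := by
      funext q
      simp only [tk, pow_one]
      rfl
    have key : ∀ (Φ : ℂ × ℂ → ℂ × ℂ) (hΦ : AnalyticAt ℂ Φ 0) (h0 : Φ 0 = 0),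
        tk (T.Th p.1.1 p.2) 1 = Φ → T.thR p.1.2 p.2 1 one_ne_zero g = bas Φ hΦ h0 g := by
      rintro _ hΦ h0 rfl
      rfl
    exact key _ _ _ h1

end inst

/-- **the partners of the charts.** -/
theorem nodesT {D : ℂ × ℂ → ℂ} {T : Tree fun p => p.1 * D p} (hH0) (N : ℕ) (hN : 0 < N)
    (split : ∀ (p : PlT T) (g : K),
      ((minpoly L0 g).map ((pwOm N hN).comp (T.thL p.1.2 p.2 1 one_ne_zero))).Splits)
    (hR : ∀ (p : PlT T) (ψ : K →+* Om),
      (∀ x : L0, ψ (algebraMap L0 K x) = pwOm N hN (T.thL p.1.2 p.2 1 one_ne_zero x)) →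
      ∀ h : R, ∃ F : R2, ψ (algebraMap R K h) = algebraMap R2 Om F)
    (inj : Function.Injective (algebraMap R K)) :
    Nodes (overT T hH0 N hN (ndT T) ndT_symm ndT_ne ndT_fin (fun _ _ h => ndT_iff.1 h) split hR
      inj) where
  node _ _ h := ndT_iff.1 h
  free _ h := ndT_none.1 h

end Vale.Agent.P298.H955
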