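import Vale.Agent.P298.H955.Adj7
import Vale.Agent.P298.H701.LkQ

/-!
# The order of the derivative and the fields `canA`, `canB`, for a family of embeddings
-/

set_option linter.style.haveILetI false

open Filter Topology

noncomputable section

namespace Vale.Agent.P298.H955

open Vale.Agent.P298 Vale.Agent.P298.H928 Vale.Agent.P298.H983 Vale.Agent.P298.H707
  Vale.Agent.P298.FF Vale.Agent.P298.H400
open Vale.Agent.P298.H701 hiding R2
open Vale.Agent.P298.H416 hiding R2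

variable {K R : Type} [Field K] [Algebra ℂ K] [Algebra L0 K]
    [IsScalarTower ℂ L0 K] [FiniteDimensional L0 K] [Algebra.IsSeparable L0 K]
    [CommRing R] [Algebra ℂ R] [Algebra R K] [IsScalarTower ℂ R K]

/-- the values of a monomial times a unit. -/
theorem vals_of_monU {g : ℂ × ℂ → ℂ} {c d : ℕ} (h : MonU g c d) :
    Ta.v (algebraMap R2 Om (ser2 g)) = c ∧ Ta.lam (algebraMap R2 Om (ser2 g)) = d ∧
      Ta.v (swOm (algebraMap R2 Om (ser2 g))) = d ∧
      Ta.lam (swOm (algebraMap R2 Om (ser2 g))) = c := by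
  obtain ⟨U, hU, h1⟩ := ser2_of_MU h
  have h2 := Ta_mono hU h1
  rw [swOm_alg]
  exact h2

section fam

variable {D : ℂ × ℂ → ℂ} {T : Tree fun p => p.1 * D p} {S : Surf L0 K R} {G : Over T S}
  {n : ℕ} (E : ∀ p : S.V × Option ℂ, Fin n → S.Emb p)
  (hE : ∀ p (ψ : S.Emb p), ∃ l, ψ = E p l) {fz : K} (hfz : fz ≠ 0)
  {c d : S.V × Option ℂ → Fin n → ℕ} {g : S.V × Option ℂ → Fin n → ℂ × ℂ → ℂ}
  (hg : ∀ p l, MonU (g p l) (c p l) (d p l))
  (hEg : ∀ p l, (E p l).f fz = algebraMap R2 Om (ser2 (g p l)))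
  (hfree : ∀ p l, S.nd p = none → (S.N : ℤ) - d p l = S.e2 (Surf.pl (E p l)))

include hE hfz hg hEg hfree in
/-- **the order of the derivative.** -/
theorem der_of : Der G fz where
  ne := hfz
  node q := by
    obtain ⟨p, ψ, hψ, -⟩ := Surf.exists_pl q
    obtain ⟨l, rfl⟩ := hE p ψ
    refine ⟨p, E p l, hψ, ?_⟩
    have h := vals_of_monU (hg p l)
    rw [hEg, h.2.2.1, h.2.1]
  free q hq := by
    obtain ⟨p, ψ, rfl, -⟩ := Surf.exists_pl q
    obtain ⟨l, rfl⟩ := hE p ψ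
    have h1 := Over.cht_none hq
    rw [Surf.cht_pl] at h1
    rw [← hfree p l h1, ← Surf.pl_lam, hEg, (vals_of_monU (hg p l)).2.1]

include hg hEg hfz in
/-- **`Link.canA`.** -/
theorem canA_of (p : S.V × Option ℂ) (l : Fin n) {a b : ℕ}
    (hJ : MonU (jacP (ThT T (G.pt p))) a b) :
    (S.N * (a + 1) : ℤ) - c p l = (LkQ.kk E p l : ℤ) * (G.KS fz (LkQ.q E p l).1 + 1) := by
  rw [LkQ.kk_cast]
  exact canA hfz (E p l) hJ (by rw [hEg, (vals_of_monU (hg p l)).1])

include hE hg hEg hfz hfree in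
/-- **`Link.canB`.** -/
theorem canB_of (hG : Nodes G) (p : S.V × Option ℂ) (l : Fin n) {a b : ℕ}
    (hJ : MonU (jacP (ThT T (G.pt p))) a b) :
    (S.N * (b + 1) : ℤ) - d p l = S.e2 (LkQ.q E p l) *
      ((S.nb (LkQ.q E p l)).elim 1 (fun q => G.KS fz q.1 + 1)) :=
  canB hG (der_of E hE hfz hg hEg hfree) (fun _ _ h => Surf.e2_node h) (E p l) hJ
    (by rw [hEg, (vals_of_monU (hg p l)).2.1])

end fam

end Vale.Agent.P298.H955
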