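import Vale.Agent.P298.H955.Adj8
import Vale.Agent.P298.H400.Free3

/-!
# The order of the derivative and the fields `canA`, `canB`, for the charts of helper707
-/

set_option linter.style.haveILetI false

open Filter Topology Polynomial

noncomputable section

namespace Vale.Agent.P298.H955

open Vale.Agent.P298 Vale.Agent.P298.H928 Vale.Agent.P298.H983 Vale.Agent.P298.H707
  Vale.Agent.P298.FF Vale.Agent.P298.H400
open Vale.Agent.P298.H701 hiding R2
open Vale.Agent.P298.H416 hiding R2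

variable {f : (Fin 3 → ℂ) → ℂ} {n : ℕ} {P : ℂ × ℂ → ℂ[X]} {v : ℂ × (ℂ × ℂ) → ℂ}
  {T : Tree fun p => p.1 * disc n P p} {ζ : PlT T → Fin n → ℂ × ℂ → ℂ}
  {σ ρ : PlT T → Equiv.Perm (Fin n)} {K R : Type} [Field K] [Algebra ℂ K] [Algebra L0 K]
  [IsScalarTower ℂ L0 K] [FiniteDimensional L0 K] [Algebra.IsSeparable L0 K]
  [CommRing R] [Algebra ℂ R] [Algebra R K] [IsScalarTower ℂ R K]
  (J : JungT f n P v T ζ σ ρ) {μ : ℕ} (hμ : Milnor f μ) {hN : 0 < n.factorial}
  {split : ∀ (p : PlT T) (g : K), ((minpoly L0 g).map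
      ((pwOm n.factorial hN).comp (T.thL p.1.2 p.2 1 one_ne_zero))).Splits}
  {hR : ∀ (p : PlT T) (ψ : K →+* Om), (∀ x : L0, ψ (algebraMap L0 K x) =
      pwOm n.factorial hN (T.thL p.1.2 p.2 1 one_ne_zero x)) →
      ∀ h : R, ∃ F : R2, ψ (algebraMap R K h) = algebraMap R2 Om F}
  {inj : Function.Injective (algebraMap R K)}

/-- the surface over the tree. -/
abbrev srf (hN : 0 < n.factorial)
    (split : ∀ (p : PlT T) (g : K), ((minpoly L0 g).map
      ((pwOm n.factorial hN).comp (T.thL p.1.2 p.2 1 one_ne_zero))).Splits)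
    (hR : ∀ (p : PlT T) (ψ : K →+* Om), (∀ x : L0, ψ (algebraMap L0 K x) =
      pwOm n.factorial hN (T.thL p.1.2 p.2 1 one_ne_zero x)) →
      ∀ h : R, ∃ F : R2, ψ (algebraMap R K h) = algebraMap R2 Om F)
    (inj : Function.Injective (algebraMap R K)) : Surf L0 K R :=
  surfT T (JungT.H0 n P) n.factorial hN (ndT T) ndT_symm ndT_ne ndT_fin
    (fun _ _ h => ndT_iff.1 h) split hR inj

/-- it lies over the tree. -/
abbrev ovr : Over T (srf hN split hR inj) :=
  overT T (JungT.H0 n P) n.factorial hN (ndT T) ndT_symm ndT_ne ndT_fin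
    (fun _ _ h => ndT_iff.1 h) split hR inj

theorem nodesJ : Nodes (ovr (T := T) (hN := hN) (split := split) (hR := hR) (inj := inj)) :=
  nodesT _ _ _ _ _ _

section fam

variable (E : ∀ p : PlT T, Fin n → (srf hN split hR inj).Emb p)
  (hE : ∀ (p : PlT T) (ψ : (srf hN split hR inj).Emb p), ∃ l, ψ = E p l) {fz : K} (hfz : fz ≠ 0)
  {c d : PlT T → Fin n → ℕ}
  (hcd : ∀ p l, MonU (fun q => pd 2 f (J.M.ch p l q)) (c p l) (d p l))
  (hEf : ∀ p l, (E p l).f fz = algebraMap R2 Om (ser2 fun q => pd 2 f (J.M.ch p l q)))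
  (he2 : ∀ p l, (srf hN split hR inj).e2 (Surf.pl (E p l)) =
    ((n.factorial / Function.minimalPeriod (ρ p) l : ℕ) : ℤ))

include J hμ hcd he2 in
theorem freeJ (p : PlT T) (l : Fin n) (hp : ndT T p = none) :
    (n.factorial : ℤ) - d p l = (srf hN split hR inj).e2 (Surf.pl (E p l)) := by
  obtain ⟨h1, h2⟩ := ndT_none.1 hp
  obtain ⟨a, b, hJ⟩ := JungT.jac T p
  obtain ⟨rfl, -, -, h3⟩ := free_can J hμ h1 h2 hJ l (hcd p l)
  rw [he2, ← h3]
  push_cast
  ring

include J hμ hE hfz hcd hEf he2 in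
/-- **the order of the derivative.** -/
theorem derJ : Der (ovr (T := T) (hN := hN) (split := split) (hR := hR) (inj := inj)) fz :=
  der_of (S := srf hN split hR inj) E hE hfz hcd hEf (freeJ J hμ E hcd he2)

include J hfz hcd hEf in
/-- **`Link.canA`.** -/
theorem canAJ (p : PlT T) (l : Fin n) {a b : ℕ} (hJ : MonU (jacP (ThT T p)) a b) :
    (n.factorial * (a + 1) : ℤ) - c p l = (LkQ.kk (S := srf hN split hR inj) E p l : ℤ) *
      ((ovr (T := T) (hN := hN) (split := split) (hR := hR) (inj := inj)).KS fz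
        (LkQ.q (S := srf hN split hR inj) E p l).1 + 1) :=
  canA_of (S := srf hN split hR inj) (G := ovr) E hfz hcd hEf p l hJ

include J hμ hE hfz hcd hEf he2 in
/-- **`Link.canB`.** -/
theorem canBJ (p : PlT T) (l : Fin n) {a b : ℕ} (hJ : MonU (jacP (ThT T p)) a b) :
    (n.factorial * (b + 1) : ℤ) - d p l = (srf hN split hR inj).e2 (LkQ.q (S := srf hN split hR inj) E p l) *
      (((srf hN split hR inj).nb (LkQ.q (S := srf hN split hR inj) E p l)).elim 1 (fun q =>
        (ovr (T := T) (hN := hN) (split := split) (hR := hR) (inj := inj)).KS fz q.1 + 1)) :=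
  canB_of (S := srf hN split hR inj) (G := ovr) E hE hfz hcd hEf (freeJ J hμ E hcd he2) nodesJ p l hJ

end fam

end Vale.Agent.P298.H955
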