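import Vale.Agent.P298.H955.CM

/-!
# The filtrations, leading coefficients and sections of the chart model
-/

set_option linter.unusedSectionVars false

noncomputable section

namespace Vale.Agent.P298.H955

open Finset Vale.Agent.P298.FF H416

namespace CModel

variable {R 𝒦 : Type*} [CommRing R] [Algebra ℂ R] [Field 𝒦] [Algebra ℂ 𝒦]
  [Algebra R 𝒦] [IsScalarTower ℂ R 𝒦] {I : Type*} [Fintype I] [DecidableEq I]
  (C : CModel R 𝒦 I)

/-- the order of a regular function. -/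
def vR (i : I) (h : R) : ℤ := C.v i (algebraMap R 𝒦 h)

theorem vR_nonneg (i : I) {h : R} (hh : h ≠ 0) : 0 ≤ C.vR i h :=
  (C.mem_O (C.map_ne hh)).1 (C.hR i h)

/-- the filtrations. -/
def fil (i : I) (d : ℤ) : Ideal R where
  carrier := {h | h = 0 ∨ d ≤ C.vR i h}
  zero_mem' := Or.inl rfl
  add_mem' := by
    intro a b ha hb
    by_cases ha0 : a = 0
    · rw [ha0, zero_add]; exact hb
    by_cases hb0 : b = 0
    · rw [hb0, add_zero]; exact ha
    by_cases hab : a + b = 0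
    · exact Or.inl hab
    refine Or.inr ?_
    have h1 := (C.hv i).add _ _ (C.map_ne ha0) (C.map_ne hb0) (by
      rw [← map_add]
      exact C.map_ne hab)
    rw [← map_add] at h1
    have h2 := ha.resolve_left ha0
    have h3 := hb.resolve_left hb0
    exact le_trans (le_min h2 h3) h1
  smul_mem' := by
    intro c a ha
    by_cases ha0 : a = 0
    · rw [ha0, smul_zero]; exact Or.inl rfl
    by_cases hc0 : c = 0
    · rw [hc0, zero_smul]; exact Or.inl rfl
    refine Or.inr ?_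
    rw [smul_eq_mul, vR, map_mul, (C.hv i).mul _ _ (C.map_ne hc0) (C.map_ne ha0)]
    have h1 := C.vR_nonneg i hc0
    have h2 := ha.resolve_left ha0
    simp only [vR] at h1 h2
    omega

theorem mem_fil {i : I} {d : ℤ} {h : R} : h ∈ C.fil i d ↔ h = 0 ∨ d ≤ C.vR i h := Iff.rfl

theorem map_or {i : I} {d : ℤ} {h : R} (hh : h ∈ C.fil i d) :
    algebraMap R 𝒦 h = 0 ∨ d ≤ C.v i (algebraMap R 𝒦 h) := by
  rcases hh with rfl | hh
  · exact Or.inl (map_zero _)
  · exact Or.inr hh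

theorem map_or_iff {i : I} {d : ℤ} {h : R} :
    (algebraMap R 𝒦 h = 0 ∨ d ≤ C.v i (algebraMap R 𝒦 h)) ↔ h ∈ C.fil i d := by
  refine ⟨fun h1 => ?_, C.map_or⟩
  rcases h1 with h1 | h1
  · rw [← (algebraMap R 𝒦).map_zero] at h1
    exact Or.inl (C.inj h1)
  · exact Or.inr h1

theorem one_le_pow_fil (i : I) (n : ℕ) : C.mm ^ n ≤ C.fil i n := by
  induction n with
  | zero =>
    intro h _
    by_cases hh : h = 0
    · exact Or.inl hh
    · exact Or.inr (by simpa using C.vR_nonneg i hh)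
  | succ n ih =>
    rw [pow_succ]
    refine Ideal.mul_le.2 fun a ha b hb => ?_
    have h1 := ih ha
    by_cases ha0 : a = 0
    · rw [ha0, zero_mul]; exact Or.inl rfl
    by_cases hb0 : b = 0
    · rw [hb0, mul_zero]; exact Or.inl rfl
    refine Or.inr ?_
    have h2 := C.mm_v b hb hb0 i
    have h3 := h1.resolve_left ha0
    rw [vR, map_mul, (C.hv i).mul _ _ (C.map_ne ha0) (C.map_ne hb0)]
    simp only [vR] at h3
    push_cast
    omega

/-- **the filtered model.** -/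
def lcModel : H272.LcModel R I where
  κ := C.κ
  fil := C.fil
  anti i d e hde h hh := by
    rcases hh with hh | hh
    · exact Or.inl hh
    · exact Or.inr (hde.trans hh)
  zero i := by
    rw [Ideal.eq_top_iff_one]
    by_cases h : (1 : R) = 0
    · exact Or.inl h
    · exact Or.inr (C.vR_nonneg i h)
  mul_mem := by
    intro i d e g h hg hh
    by_cases hg0 : g = 0
    · rw [hg0, zero_mul]; exact Or.inl rfl
    by_cases hh0 : h = 0
    · rw [hh0, mul_zero]; exact Or.inl rfl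
    refine Or.inr ?_
    have h1 := hg.resolve_left hg0
    have h2 := hh.resolve_left hh0
    simp only [vR] at h1 h2
    rw [vR, map_mul, (C.hv i).mul _ _ (C.map_ne hg0) (C.map_ne hh0)]
    omega
  lc i d h := C.lco i d (algebraMap R 𝒦 h)
  lc_add := by
    intro i d g h hg hh
    rw [lco, map_add, add_mul, C.rs_add (C.shift_mem (C.map_or hg)) (C.shift_mem (C.map_or hh))]
    rfl
  lc_smul := by
    intro i d c h hh
    rw [lco, Algebra.smul_def, map_mul, mul_assoc, ← IsScalarTower.algebraMap_apply,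
      C.rs_mul (C.hC i c) (C.shift_mem (C.map_or hh)), C.rs_C, Algebra.smul_def]
    rfl
  lc_eq_zero := by
    intro i d h hh
    rw [C.lco_eq_zero (C.map_or hh)]
    exact C.map_or_iff
  lc_mul := by
    intro i d e g h hg hh
    have h1 : algebraMap R 𝒦 (g * h) * C.pi i ^ (-(d + e)) =
        (algebraMap R 𝒦 g * C.pi i ^ (-d)) * (algebraMap R 𝒦 h * C.pi i ^ (-e)) := by
      rw [map_mul, neg_add, zpow_add₀ (C.pi_ne i)]
      ring
    rw [lco, h1, C.rs_mul (C.shift_mem (C.map_or hg)) (C.shift_mem (C.map_or hh))]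
    rfl
  Δ := C.Del
  lc_mem := by
    intro D i h hh
    rw [mem_LL]
    by_cases h0 : C.lco i (D i) (algebraMap R 𝒦 h) = 0
    · exact Or.inl h0
    · refine Or.inr fun P => ?_
      rw [C.lco_eq_zero (C.map_or (hh i)), not_or] at h0
      obtain ⟨hne, hlt⟩ := h0
      have hh0 : h ≠ 0 := by
        rintro rfl
        exact hne (map_zero _)
      have hv : C.v i (algebraMap R 𝒦 h) = D i := by
        have := (hh i).resolve_left hh0
        simp only [vR] at this
        omega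
      have h1 := C.lam_eq ⟨i, P⟩ hne
      simp only [hv] at h1
      obtain ⟨b, hb⟩ := C.e2_dvd ⟨i, P⟩ _ hne
      have h2 : (D i, b) ∈ (C.nl ⟨i, P⟩).L := ⟨_, hne, hv, hb⟩
      have h3 : C.y D ⟨i, P⟩ ≤ b := by
        have hp := C.e2_pos ⟨i, P⟩
        rcases hn : C.nb ⟨i, P⟩ with _ | q'
        · rw [y, hn]
          have h4 := C.free_le _ hn h hh0
          rw [hb] at h4
          exact nonneg_of_mul_nonneg_right h4 hp
        · rw [y, hn]
          have h4 := C.node_le _ _ hn h hh0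
          rw [hb] at h4
          have h5 := (hh q'.1).resolve_left hh0
          exact h5.trans (le_of_mul_le_mul_left h4 hp)
      have h4 := (C.nl ⟨i, P⟩).le_of_mem h2 h3
      have h5 := C.e1_del D ⟨i, P⟩
      have h6 : C.u D ⟨i, P⟩ ≤ b := h4
      have h7 := mul_le_mul_of_nonneg_left h6 (C.e2_pos ⟨i, P⟩).le
      have h8 : 0 ≤ C.e1 ⟨i, P⟩ * (ord P (C.lco i (D i) (algebraMap R 𝒦 h)) + C.del D ⟨i, P⟩) := by
        rw [mul_add, h5]
        simp only
        linarith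
      have h9 := nonneg_of_mul_nonneg_right h8 (C.e1_pos _)
      rw [Del_apply]
      omega
  fin := by
    intro D
    obtain ⟨n, hn⟩ : ∃ n : ℕ, ∀ i, D i ≤ n := by
      obtain ⟨n, hn⟩ := (Set.finite_range D).bddAbove
      refine ⟨n.toNat, fun i => ?_⟩
      have := hn (Set.mem_range_self i)
      omega
    have h1 : C.mm ^ n ≤ ⨅ i, C.fil i (D i) := by
      refine le_iInf fun i h hh => ?_
      rcases C.one_le_pow_fil i n hh with h2 | h2
      · exact Or.inl h2
      · exact Or.inr ((hn i).trans h2)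
    have h2 := C.mm_fin n
    exact Module.Finite.of_surjective
      ((Ideal.Quotient.factorₐ ℂ h1).toLinearMap) (Ideal.Quotient.factor_surjective h1)

theorem lc_deg : C.lcModel.deg = C.deg := rfl

theorem lc_gg : C.lcModel.gg = C.gg := rfl

theorem lc_fil (i : I) (d : ℤ) : C.lcModel.fil i d = C.fil i d := rfl

/-- the colength. -/
def c (D : I → ℤ) : ℤ := C.lcModel.c D

theorem stepBound : H471.StepBound C.nodeData.g C.nodeData.deg C.c := C.lcModel.stepBound

theorem mem_b {D : I → ℤ} {h : R} (hh : h ≠ 0) : h ∈ C.lcModel.b D ↔ ∀ i, D i ≤ C.vR i h := by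
  rw [H272.LcModel.mem_b]
  refine forall_congr' fun i => ?_
  exact ⟨fun h1 => (C.mem_fil.1 h1).resolve_left hh, fun h1 => Or.inr h1⟩

/-- the partner component. -/
def nbi (i : I) (P : Plk ℂ (C.κ i)) : Option I := (C.nb ⟨i, P⟩).map (fun q => q.1)

/-- the non exceptional part of the divisor does not pass through the place. -/
def NV (i : I) (P : Plk ℂ (C.κ i)) (h : R) : Prop :=
  C.lam ⟨i, P⟩ (algebraMap R 𝒦 h) = C.e2 ⟨i, P⟩ * C.y (fun l => C.vR l h) ⟨i, P⟩

/-- the extra zeros. -/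
theorem extra_nonneg (q : C.Q) {h : R} (hh : h ≠ 0) :
    C.e2 q * C.y (fun l => C.vR l h) q ≤ C.lam q (algebraMap R 𝒦 h) := by
  rcases hn : C.nb q with _ | q'
  · rw [y, hn]
    simpa using C.free_le _ hn h hh
  · rw [y, hn]
    exact C.node_le _ _ hn h hh

/-- **the net formula**: the intersection number is minus the number of extra zeros. -/
theorem net (i : I) {h : R} (hh : h ≠ 0) :
    H471.ipR C.nodeData.M (H471.toR (H471.vc C.vR h)) i =
      -∑ᶠ P, ((C.lam ⟨i, P⟩ (algebraMap R 𝒦 h) -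
        C.e2 ⟨i, P⟩ * C.y (fun l => C.vR l h) ⟨i, P⟩ : ℤ) : ℝ) / C.e1 ⟨i, P⟩ := by
  have hz := C.map_ne hh
  have hfin : (Function.support fun P : Plk ℂ (C.κ i) =>
      (C.y (fun l => C.vR l h) ⟨i, P⟩ : ℝ) / C.r ⟨i, P⟩).Finite := by
    have h1 : {P : Plk ℂ (C.κ i) | C.nb ⟨i, P⟩ ≠ none}.Finite :=
      C.nb_fin.preimage (f := fun P => (⟨i, P⟩ : C.Q)) (fun P _ P' _ h => by
        simpa using h)
    refine h1.subset fun P hP h2 => hP ?_
    simp only [y, h2]
    simp
  have h1 : ∀ P, ((C.lam ⟨i, P⟩ (algebraMap R 𝒦 h) -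
        C.e2 ⟨i, P⟩ * C.y (fun l => C.vR l h) ⟨i, P⟩ : ℤ) : ℝ) / C.e1 ⟨i, P⟩ =
      (C.lam ⟨i, P⟩ (algebraMap R 𝒦 h) : ℝ) / C.e1 ⟨i, P⟩ -
        (C.y (fun l => C.vR l h) ⟨i, P⟩ : ℝ) / C.r ⟨i, P⟩ := by
    intro P
    have h2 := C.e2R ⟨i, P⟩
    have h3 := C.rR ⟨i, P⟩
    rw [C.e1_eqR]
    push_cast
    field_simp
  have hs : (Function.support fun P : Plk ℂ (C.κ i) =>
      (C.lam ⟨i, P⟩ (algebraMap R 𝒦 h) : ℝ) / C.e1 ⟨i, P⟩).Finite :=
    C.supp_fin (C.fin_supp_lam i hz) fun P hP h => hP (by simp [h])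
  rw [finsum_congr h1, finsum_sub_distrib hs hfin, C.sum_lam i hz, H400.NodeData.ipR_eq,
    C.finsum_split i hfin, C.sum_nodes i (fun q => (C.y (fun l => C.vR l h) q : ℝ) / C.r q)]
  have h2 : ∑ᶠ P, (if C.nb ⟨i, P⟩ = none then
      (C.y (fun l => C.vR l h) ⟨i, P⟩ : ℝ) / C.r ⟨i, P⟩ else 0) = 0 := by
    rw [finsum_eq_zero_of_forall_eq_zero]
    intro P
    split_ifs with h3
    · simp [y, h3]
    · rfl
  have h3 : ∀ h' : C.H, (C.y (fun l => C.vR l h) h'.1 : ℝ) =
      C.v (C.op h').1 (algebraMap R 𝒦 h) := by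
    intro h'
    rw [y, C.nb_op h']
    rfl
  rw [h2]
  have h4 : ∑ h' ∈ univ.filter (fun h' : C.H => h'.1.1 = i),
      (C.y (fun l => C.vR l h) h'.1 : ℝ) / C.r h'.1 =
      ∑ h' ∈ C.nodeData.at' i, H471.toR (H471.vc C.vR h)
        (C.nodeData.org (C.nodeData.opp h')) / (C.nodeData.nl h').r := by
    refine Finset.sum_congr rfl fun h' _ => ?_
    rw [h3]
    rfl
  rw [h4]
  show (C.v i (algebraMap R 𝒦 h) : ℝ) * C.s i + _ = _
  ring

theorem net_nonpos (i : I) {h : R} (hh : h ≠ 0) :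
    H471.ipR C.nodeData.M (H471.toR (H471.vc C.vR h)) i ≤ 0 := by
  rw [C.net i hh, Left.neg_nonpos_iff]
  refine finsum_nonneg fun P => div_nonneg ?_ (C.e1R _).le
  have := C.extra_nonneg ⟨i, P⟩ hh
  exact_mod_cast sub_nonneg.2 this

theorem net_zero (i : I) {h : R} (hh : h ≠ 0)
    (h0 : H471.ipR C.nodeData.M (H471.toR (H471.vc C.vR h)) i = 0) (P : Plk ℂ (C.κ i)) :
    C.NV i P h := by
  by_contra hcon
  have h1 := C.net i hh
  rw [h0] at h1
  have h2 : 0 < ∑ᶠ P, ((C.lam ⟨i, P⟩ (algebraMap R 𝒦 h) -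
        C.e2 ⟨i, P⟩ * C.y (fun l => C.vR l h) ⟨i, P⟩ : ℤ) : ℝ) / C.e1 ⟨i, P⟩ := by
    refine finsum_pos (fun P => div_nonneg ?_ (C.e1R _).le) ⟨P, div_pos ?_ (C.e1R _)⟩ ?_
    · have := C.extra_nonneg ⟨i, P⟩ hh
      exact_mod_cast sub_nonneg.2 this
    · have := C.extra_nonneg ⟨i, P⟩ hh
      have h3 := lt_of_le_of_ne this (fun h => hcon h.symm)
      exact_mod_cast sub_pos.2 h3
    · have h3 : {P : Plk ℂ (C.κ i) | C.nb ⟨i, P⟩ ≠ none}.Finite :=
        C.nb_fin.preimage (f := fun P => (⟨i, P⟩ : C.Q)) (fun P _ P' _ h => by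
          simpa using h)
      refine (h3.union (C.fin_supp_lam i (C.map_ne hh))).subset fun P hP => ?_
      by_contra h4
      simp only [Set.mem_union, Set.mem_ofPred_eq, not_or, not_not] at h4
      apply hP
      simp [y, h4.1, h4.2]
  linarith

/-- Cartier cycles. -/
structure Cart (Z : I → ℤ) : Prop where
  node : ∀ h : C.H, (Z h.1.1, Z (C.op h).1) ∈ (C.nl h.1).L
  frozen : ∀ f : C.F, (Z f.1.1, (0 : ℤ)) ∈ (C.nl f.1).L

/-- the exactness at a place. -/
theorem exact_iff {D : I → ℤ} {q : C.Q} {z : 𝒦} (hz : z ≠ 0) (hv : C.v q.1 z = D q.1) :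
    ord q.2 (C.lco q.1 (D q.1) z) = -C.del D q ↔ C.lam q z = C.e2 q * C.u D q := by
  have h1 := C.lam_eq q hz
  have h2 := C.e1_del D q
  rw [hv] at h1
  constructor
  · intro h
    rw [h] at h1
    linarith
  · intro h
    have h3 : C.e1 q * ord q.2 (C.lco q.1 (D q.1) z) = C.e1 q * -C.del D q := by linarith
    exact mul_left_cancel₀ (C.e1_pos q).ne' h3

/-- **the functions of the model.** -/
theorem bModel {Z : I → ℤ} (hZ : C.Cart Z) :
    H471.BModel C.nodeData.M C.nodeData.g C.nodeData.deg C.c Z (fun h : R => h ≠ 0) C.vR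
      C.nbi C.NV where
  step0 := by
    intro D j h
    obtain ⟨g, hg, hg1, -⟩ := C.lcModel.exists_of_pos h
    have hg0 : g ≠ 0 := by
      rintro rfl
      exact hg1 (Submodule.zero_mem _)
    have h1 := (C.mem_b hg0).1 hg
    refine ⟨g, hg0, h1, ?_⟩
    have h2 : ¬ (D j + 1 ≤ C.vR j g) := fun h2 => hg1 (Or.inr h2)
    have := h1 j
    omega
  anti h hh j := C.net_nonpos j hh
  zero_of h hh j h0 P := C.net_zero j hh h0 P
  node := by
    intro j P l hl
    rw [nbi, Option.map_eq_some_iff] at hl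
    obtain ⟨⟨l', P'⟩, hn, rfl⟩ := hl
    have hne : C.nb ⟨j, P⟩ ≠ none := by rw [hn]; simp
    have hop : C.op ⟨⟨j, P⟩, hne⟩ = ⟨l', P'⟩ :=
      Option.some_injective _ ((C.nb_op ⟨⟨j, P⟩, hne⟩).symm.trans hn)
    refine ⟨?_, P', fun h hh hNV => ?_⟩
    · have hjl : j ≠ l' := (C.nb_ne _ _ hn).symm
      rw [H400.NodeData.M_ne _ hjl]
      refine Finset.sum_pos (fun k _ => ?_) ⟨⟨⟨j, P⟩, hne⟩, ?_⟩
      · have := C.nodeData.r_pos k
        positivity
      · rw [Finset.mem_filter, H400.NodeData.mem_at]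
        refine ⟨rfl, ?_⟩
        show (C.op ⟨⟨j, P⟩, hne⟩).1 = l'
        rw [hop]
    · have hn' := C.nb_symm _ _ hn
      have h1 := C.node_nv _ _ hn' h hh (by
        rw [NV, y, hn'] at hNV
        exact hNV)
      rw [NV, y, hn]
      exact h1
  surj := by
    intro n D j P hD hDl hdeg hc
    obtain ⟨g, hg, hg1, hg2, hg3, hg4⟩ := C.lcModel.exists_exact hdeg hc.ge {P}
    have hg0 : g ≠ 0 := by
      rintro rfl
      exact hg1 (Submodule.zero_mem _)
    have h1 := (C.mem_b hg0).1 hg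
    have hvj : C.vR j g = D j := by
      have h2 : ¬ (D j + 1 ≤ C.vR j g) := fun h2 => hg1 (Or.inr h2)
      have := h1 j
      omega
    have h2 : C.lam ⟨j, P⟩ (algebraMap R 𝒦 g) = C.e2 ⟨j, P⟩ * C.u D ⟨j, P⟩ :=
      (C.exact_iff (q := ⟨j, P⟩) (C.map_ne hg0) hvj).1 (hg4 P (Finset.mem_singleton_self P))
    rcases hn : C.nb ⟨j, P⟩ with _ | q'
    · have hy : C.y D ⟨j, P⟩ = 0 := by rw [y, hn]; rfl
      have hu : C.u D ⟨j, P⟩ = 0 := by
        by_cases he : C.e1 ⟨j, P⟩ = C.e2 ⟨j, P⟩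
        · exact C.u_free hn he
        · have h3 := hZ.frozen ⟨⟨j, P⟩, hn, he⟩
          have h4 : (D j, (0 : ℤ)) ∈ (C.nl ⟨j, P⟩).L := by
            have := (C.nl ⟨j, P⟩).L.nsmul_mem h3 n
            rw [hD]
            simpa using this
          rw [u, hy, (C.nl ⟨j, P⟩).rho_eq_zero.2 h4, add_zero]
      refine ⟨g, hg0, h1, hvj, ?_, ?_⟩
      · intro l hl
        rw [nbi, hn] at hl
        simp at hl
      · rw [NV, h2, hu, y, hn]
        rfl
    · have hne : C.nb ⟨j, P⟩ ≠ none := by rw [hn]; simp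
      have hop : C.op ⟨⟨j, P⟩, hne⟩ = q' :=
        Option.some_injective _ ((C.nb_op ⟨⟨j, P⟩, hne⟩).symm.trans hn)
      have hy : C.y D ⟨j, P⟩ = D q'.1 := by rw [y, hn]; rfl
      have hDl' : D q'.1 = n * Z q'.1 := hDl q'.1 (by rw [nbi, hn]; rfl)
      have hu : C.u D ⟨j, P⟩ = D q'.1 := by
        have h3 := hZ.node ⟨⟨j, P⟩, hne⟩
        rw [hop] at h3
        have h4 : (D j, D q'.1) ∈ (C.nl ⟨j, P⟩).L := by
          have := (C.nl ⟨j, P⟩).L.nsmul_mem h3 n
          rw [hD, hDl']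
          simpa using this
        rw [u, hy, (C.nl ⟨j, P⟩).rho_eq_zero.2 h4, add_zero]
      have h5 := C.node_le _ _ hn g hg0
      rw [h2, hu] at h5
      have h6 : C.vR q'.1 g ≤ D q'.1 := le_of_mul_le_mul_left h5 (C.e2_pos _)
      have h7 : C.vR q'.1 g = D q'.1 := le_antisymm h6 (h1 _)
      refine ⟨g, hg0, h1, hvj, ?_, ?_⟩
      · intro l hl
        rw [nbi, hn] at hl
        simp only [Option.map_some, Option.some.injEq] at hl
        rw [← hl]
        exact h7
      · rw [NV, h2, hu, y, hn]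
        show _ = C.e2 ⟨j, P⟩ * C.vR q'.1 g
        rw [h7]

end CModel

end Vale.Agent.P298.H955
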