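import Vale.Agent.P298.H955.CM2
import Vale.Agent.P298.H471.Strict

/-!
# The numerical model of the chart model
-/

set_option linter.unusedSectionVars false

noncomputable section

namespace Vale.Agent.P298.H955

open Finset Vale.Agent.P298.FF H416

namespace CModel

variable {R 𝒦 : Type*} [CommRing R] [Algebra ℂ R] [Field 𝒦] [Algebra ℂ 𝒦]
  [Algebra R 𝒦] [IsScalarTower ℂ R 𝒦] {I : Type*} [Fintype I] [DecidableEq I]
  (C : CModel R 𝒦 I)

theorem isOrders : H471.IsOrders C.lcModel C.vR := by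
  intro h hh i d
  exact ⟨fun h1 => (C.mem_fil.1 h1).resolve_left hh, fun h1 => Or.inr h1⟩

theorem deg_le (D : I → ℤ) (j : I) :
    (C.lcModel.deg D j : ℝ) ≤ -H471.ipR C.nodeData.M (H471.toR D) j := C.nodeData.deg_le D j

/-- two functions with a nonconstant ratio of leading coefficients. -/
theorem nonconst (j : I) : ∃ h₁ h₂ : R, h₁ ≠ 0 ∧ h₂ ≠ 0 ∧ C.vR j h₁ = C.vR j h₂ ∧
    ∀ a : ℂ, C.lcModel.lc j (C.vR j h₁) h₁ ≠ a • C.lcModel.lc j (C.vR j h₁) h₂ := by
  have hη0 : C.η j ≠ 0 := by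
    intro h
    exact C.η_nc j 0 (by rw [h, map_zero])
  obtain ⟨z, hz, hv, hl⟩ := C.exists_lift j 0 hη0
  obtain ⟨g, h, hh, he⟩ := C.frac z
  have hh' := C.map_ne hh
  have hg' : algebraMap R 𝒦 g ≠ 0 := by
    rw [← he]
    exact mul_ne_zero hz hh'
  have hg : g ≠ 0 := by
    rintro rfl
    exact hg' (map_zero _)
  have h1 : C.v j (algebraMap R 𝒦 g) = C.v j (algebraMap R 𝒦 h) := by
    rw [← he, (C.hv j).mul _ _ hz hh', hv, zero_add]
  refine ⟨g, h, hg, hh, h1, fun a ha => ?_⟩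
  have h2 : C.lco j (C.vR j g) (algebraMap R 𝒦 g) =
      C.η j * C.lco j (C.vR j g) (algebraMap R 𝒦 h) := by
    have h6 : algebraMap R 𝒦 h * C.pi j ^ (-C.vR j g) ∈ C.O j := C.shift_mem (Or.inr h1.le)
    have h7 : z * C.pi j ^ (-(0 : ℤ)) ∈ C.O j := C.shift_mem (Or.inr hv.ge)
    rw [← hl, lco, lco, lco, ← C.rs_mul h7 h6, ← he]
    simp only [neg_zero, zpow_zero, mul_one]
    rw [mul_assoc]
  have h3 : C.lco j (C.vR j g) (algebraMap R 𝒦 h) ≠ 0 := by
    have h4 : C.vR j g = C.v j (algebraMap R 𝒦 h) := h1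
    rw [h4]
    exact C.lco_ne hh'
  have h5 : C.lco j (C.vR j g) (algebraMap R 𝒦 g) =
      a • C.lco j (C.vR j g) (algebraMap R 𝒦 h) := ha
  rw [h2, Algebra.smul_def] at h5
  exact C.η_nc j a (mul_right_cancel₀ h3 h5)

/-- the combinatorial model without connectedness. -/
theorem omodel0 {X : (I → ℤ) → ℝ}
    (hX : ∀ D j, X (D + H471.ee j) - X D = C.nodeData.deg D j + 1 - C.nodeData.g j) :
    H471.OModel0 C.nodeData.M C.nodeData.K C.nodeData.g C.nodeData.δ C.nodeData.deg X :=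
  ⟨C.nodeData.M_symm, fun _ _ h => C.nodeData.M_off h, C.nodeData.adj', C.nodeData.pos, hX⟩

/-- **the combinatorial model**, from the anchor inequality and Izumi's estimate. -/
theorem exists_omodel
    (hc : ∀ G : I → ℤ, ∑ j, C.nodeData.rC j * (2 * G j + C.nodeData.A j + C.nodeData.K j) ≤
      2 * (C.c (G + C.nodeData.A) - C.c G))
    (IZ : ∀ (l j : I) (a : ℤ), ∃ N : ℤ, ∀ h : R, h ≠ 0 → N ≤ C.vR l h → a ≤ C.vR j h) :
    ∃ X : (I → ℤ) → ℝ,
      H471.OModel C.nodeData.M C.nodeData.K C.nodeData.g C.nodeData.δ C.nodeData.deg X ∧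
      H471.Anchor C.nodeData.M X C.c C.nodeData.A := by
  obtain ⟨X, hX, hX2⟩ := C.nodeData.exists_pot
  have ha : H471.Anchor C.nodeData.M X C.c C.nodeData.A := C.nodeData.anchor hX2 hc
  exact ⟨X, H471.omodel_of_lc (G := C.lcModel) (C.omodel0 hX) C.isOrders C.deg_le C.nonconst ha IZ,
    ha⟩

end CModel

end Vale.Agent.P298.H955
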