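import Vale.Agent.P298.H955.Adj8
import Vale.Agent.P298.H955.Nb
import Vale.Agent.P298.H400.Free3
import Vale.Agent.P298.H928.SurfJ

/-!
# The canonical data of the surface of a Jung model
-/

set_option linter.style.haveILetI false

open Filter Topology Polynomial

noncomputable section

namespace Vale.Agent.P298.H955

open Vale.Agent.P298 Vale.Agent.P298.H928 Vale.Agent.P298.H983 Vale.Agent.P298.H707
  Vale.Agent.P298.FF Vale.Agent.P298.H400
open Vale.Agent.P298.H701 (ser2 KF PL LL2 LkQ.kk LkQ.q)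
open Vale.Agent.P298.H416 (Om Surf swOm Ta pwOm)
open Vale.Agent.P298.H471 (RV cl algRK towRK finDim_KF sep_KF)

variable {f : (Fin 3 → ℂ) → ℂ} {n : ℕ} {P : ℂ × ℂ → ℂ[X]} {v : ℂ × (ℂ × ℂ) → ℂ}
  {T : Tree fun p => p.1 * disc n P p} {ζ : PlT T → Fin n → ℂ × ℂ → ℂ}
  {σ ρ : PlT T → Equiv.Perm (Fin n)} (J : JungT f n P v T ζ σ ρ)
  [hirr : Fact (Irreducible (PL n P))]

/-- the surface lies over the tree. -/
def ovJ : letI := algRK J.M.hf J.M.W
    haveI := towRK J.M.hf J.M.W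
    haveI := finDim_KF J.M.W
    haveI := sep_KF J.M.W
    Over T (surfJ J) :=
  letI := algRK J.M.hf J.M.W
  haveI := towRK J.M.hf J.M.W
  haveI := finDim_KF J.M.W
  haveI := sep_KF J.M.W
  overT T (JungT.H0 n P) n.factorial n.factorial_pos (ndT T) ndT_symm ndT_ne ndT_fin
    (fun _ _ h => ndT_iff.1 h) _ _ _

theorem ndsJ : letI := algRK J.M.hf J.M.W
    haveI := towRK J.M.hf J.M.W
    haveI := finDim_KF J.M.W
    haveI := sep_KF J.M.W
    Nodes (ovJ J) := by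
  letI := algRK J.M.hf J.M.W
  haveI := towRK J.M.hf J.M.W
  haveI := finDim_KF J.M.W
  haveI := sep_KF J.M.W
  exact nodesT _ _ _ _ _ _

/-- the third derivative in the field. -/
def fzJ : KF n P :=
  letI := algRK J.M.hf J.M.W
  algebraMap (RV f) (KF n P) (cl f (pd 2 f))

theorem EJ_fz : letI := algRK J.M.hf J.M.W
    haveI := towRK J.M.hf J.M.W
    haveI := finDim_KF J.M.W
    haveI := sep_KF J.M.W
    ∀ (p : PlT T) (l : Fin n), (EJ J p l).f (fzJ J) =
      algebraMap R2 Om (ser2 fun q => pd 2 f (J.M.ch p l q)) := by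
  letI := algRK J.M.hf J.M.W
  haveI := towRK J.M.hf J.M.W
  haveI := finDim_KF J.M.W
  haveI := sep_KF J.M.W
  intro p l
  exact EJ_cl J p l (pd 2 f) (H766.hol_pd J.M.hf 2)

theorem fzJ_ne (hf0 : f 0 = 0) : fzJ J ≠ 0 := by
  letI := algRK J.M.hf J.M.W
  haveI := towRK J.M.hf J.M.W
  haveI := finDim_KF J.M.W
  haveI := sep_KF J.M.W
  intro h
  set p : PlT T := (⟨[], T.nil_mem⟩, none)
  set l : Fin n := ⟨0, J.n_pos hf0⟩
  obtain ⟨c, d, hcd⟩ := J.M.monU_pd p l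
  obtain ⟨U, hU, h1⟩ := ser2_of_MU hcd
  have h2 := EJ_fz J p l
  rw [h, map_zero] at h2
  have h3 : ser2 (fun q => pd 2 f (J.M.ch p l q)) = 0 :=
    IsFractionRing.injective R2 Om (by rw [← h2, map_zero])
  rw [h1] at h3
  exact mul_ne_zero (mul_ne_zero (pow_ne_zero _ (Vale.Agent.P298.H701.X_ne_zero 0))
    (pow_ne_zero _ (Vale.Agent.P298.H701.X_ne_zero 1))) hU.ne_zero h3

section der

variable (hf0 : f 0 = 0) {μ : ℕ} (hμ : Milnor f μ) {c d : PlT T → Fin n → ℕ}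
  (hcd : ∀ p l, MonU (fun q => pd 2 f (J.M.ch p l q)) (c p l) (d p l))

include hf0 hμ hcd in
/-- **the order of the derivative.** -/
theorem derJ : letI := algRK J.M.hf J.M.W
    haveI := towRK J.M.hf J.M.W
    haveI := finDim_KF J.M.W
    haveI := sep_KF J.M.W
    (∀ p l, (surfJ J).e2 (Surf.pl (EJ J p l)) =
      ((n.factorial / Function.minimalPeriod (ρ p) l : ℕ) : ℤ)) → Der (ovJ J) (fzJ J) := by
  letI := algRK J.M.hf J.M.W
  haveI := towRK J.M.hf J.M.W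
  haveI := finDim_KF J.M.W
  haveI := sep_KF J.M.W
  intro he2
  refine der_of (S := surfJ J) (G := ovJ J) (EJ J) (EJ_surj J) (fzJ_ne J hf0) hcd (EJ_fz J)
    fun p l hp => ?_
  obtain ⟨h1, h2⟩ := ndT_none.1 hp
  obtain ⟨a, b, hJ⟩ := JungT.jac T p
  obtain ⟨rfl, -, -, h3⟩ := free_can J hμ h1 h2 hJ l (hcd p l)
  refine Eq.trans ?_ (he2 p l).symm
  rw [← h3]
  change (n.factorial : ℤ) - d p l = _
  push_cast
  ring

include hf0 hcd in
/-- **`Link.canA`.** -/
theorem canAJ : letI := algRK J.M.hf J.M.W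
    haveI := towRK J.M.hf J.M.W
    haveI := finDim_KF J.M.W
    haveI := sep_KF J.M.W
    ∀ (p : PlT T) (l : Fin n) (a b : ℕ), MonU (jacP (ThT T p)) a b →
    (n.factorial * (a + 1) : ℤ) - c p l = (surfJ J).ka (Surf.pl (EJ J p l)) *
      ((ovJ J).KS (fzJ J) (Surf.pl (EJ J p l)).1 + 1) := by
  letI := algRK J.M.hf J.M.W
  haveI := towRK J.M.hf J.M.W
  haveI := finDim_KF J.M.W
  haveI := sep_KF J.M.W
  intro p l a b hJ
  exact canA (S := surfJ J) (G := ovJ J) (fzJ_ne J hf0) (EJ J p l) hJ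
    (by rw [EJ_fz, (vals_of_monU (hcd p l)).1])

include hf0 hμ hcd in
/-- **`Link.canB`.** -/
theorem canBJ : letI := algRK J.M.hf J.M.W
    haveI := towRK J.M.hf J.M.W
    haveI := finDim_KF J.M.W
    haveI := sep_KF J.M.W
    (∀ p l, (surfJ J).e2 (Surf.pl (EJ J p l)) =
      ((n.factorial / Function.minimalPeriod (ρ p) l : ℕ) : ℤ)) →
    ∀ (p : PlT T) (l : Fin n) (a b : ℕ), MonU (jacP (ThT T p)) a b →
    (n.factorial * (b + 1) : ℤ) - d p l = (surfJ J).e2 (Surf.pl (EJ J p l)) *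
      (((surfJ J).nb (Surf.pl (EJ J p l))).elim 1 (fun q => (ovJ J).KS (fzJ J) q.1 + 1)) := by
  letI := algRK J.M.hf J.M.W
  haveI := towRK J.M.hf J.M.W
  haveI := finDim_KF J.M.W
  haveI := sep_KF J.M.W
  intro he2 p l a b hJ
  exact canB (S := surfJ J) (G := ovJ J) (ndsJ J) (derJ J hf0 hμ hcd he2)
    (fun _ _ h => Surf.e2_node h) (EJ J p l) hJ (by rw [EJ_fz, (vals_of_monU (hcd p l)).2.1])

end der

end Vale.Agent.P298.H955
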